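import Vale.Agent.P256.H824.Flat

/-! Section 3, final form: the flat line in the geometric context. -/

set_option linter.all false

namespace Vale.Agent.P256.H824

open MvPolynomial Filter Topology Matrix Vale.Agent.P256 Vale.Agent.P256.H326
open Vale.Agent.P256.H387 hiding Dom Sml
open Vale.Agent.P256.H201 (Dom Sml germ_fr)

section Abstract

variable {L X : Type} {F : Filter L} {V : Filter X} {S : L → X → ℝ} {K K' : Crd L X}
  {ι : Type} [Fintype ι] [DecidableEq ι]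

theorem gam_neg (R : KRep ι F V S K) (h : gam R < 0) : SosF F V S := by
  refine sos_S R ?_
  have h1 : SosF F V (fun l x => ∑ i, ∑ j, Mf R.B R.D R.G1 R.H (K.y0 x) (K.b' x) (K.a' x) i j *
      R.ξ l i * R.ξ l j) := by
    exact sosF_psd (F := F) R.psdX R.ξ
  have h2 : SosF F V (fun l (x : X) => -(R.ξ l ⬝ᵥ (R.H (K.a l) *ᵥ R.ξ l)) - (-gam R) / 2) := by
    refine SosF.left ?_
    have h3 : Tendsto (fun l => -(R.ξ l ⬝ᵥ (R.H (K.a l) *ᵥ R.ξ l)) - (-gam R) / 2) F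
        (𝓝 (-(gam R) - (-gam R) / 2)) := (tgam R).neg.sub tendsto_const_nhds
    exact (h3.eventually (lt_mem_nhds (by linarith))).mono fun l hl => hl.le
  have h3 := err_le R (η := (-gam R) / 2) (by linarith)
  refine (((h1.add (h2.mul (sos_α (K := K)))).add h3)).congr' fun l x => ?_
  rw [St_eq]
  ring

theorem g_ne (R : KRep ι F V S K) (hs : CRstrict R) (hB : R.B *ᵥ R.ξ0 = 0) :
    SosF F V S ∨ R.G1 *ᵥ R.ξ0 ≠ 0 := by
  by_cases hg : R.G1 *ᵥ R.ξ0 = 0
  · left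
    apply gam_neg R
    obtain ⟨Z, α, q, h⟩ := hs
    rw [hB, hg, smul_zero, smul_zero, add_zero] at h
    have h1 : qf R.D q 0 ≤ 0 := by
      unfold qf
      rw [dotProduct_zero]
      have := psd_nonneg R.psdD q
      linarith
    by_contra hneg
    push Not at hneg
    have h2 : 0 ≤ gam R * α ^ 2 := by positivity
    linarith
  · exact Or.inr hg

/-- (STAR) in the exchanged frame -/
theorem star_exch {n1 n2 : ℝ} (hn : n2 ≠ 0) (et : ∀ l x, K.t l x = K'.t l x)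
    (eZ : ∀ l x, K.Z l x = n1 * K'.Z l x + K'.α l x) (eα : ∀ l x, K.α l x = n2 * K'.Z l x)
    {c : ℝ} (hc : 0 < c) (h : ∀ δ > 0, SosF F V (fun l x => S l x + δ * nrmK K l x -
        c * (K.t l x ^ 2 + (K.Z l x * n2 - K.α l x * n1) ^ 2))) : Star F V S K' := by
  have hn2 : 0 < n2 ^ 2 := by positivity
  set C : ℝ := 2 * n1 ^ 2 + n2 ^ 2 + 2 with hC
  have hC0 : 0 < C := by positivity
  set c' : ℝ := min c (c * n2 ^ 2) with hc'
  have hc'0 : 0 < c' := lt_min hc (by positivity)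
  refine ⟨c', hc'0, fun δ hδ => ?_⟩
  have h1 := h (δ / C) (by positivity)
  have b1 := (sos_t (K := K') (F := F) (V := V)).smul (c := δ / C * (C - 1) + (c - c'))
    (by
      have : c' ≤ c := min_le_left _ _
      have h2 : 0 ≤ C - 1 := by rw [hC]; nlinarith [sq_nonneg n1]
      have : 0 ≤ δ / C * (C - 1) := by positivity
      linarith)
  have b2 := (sos_Z (K := K') (F := F) (V := V)).smul (c := δ / C * 2) (by positivity)
  have b3 := (sos_α (K := K') (F := F) (V := V)).smul (c := δ / C * (C - 2) + (c * n2 ^ 2 - c'))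
    (by
      have : c' ≤ c * n2 ^ 2 := min_le_right _ _
      have h2 : 0 ≤ C - 2 := by rw [hC]; nlinarith [sq_nonneg n1]
      have : 0 ≤ δ / C * (C - 2) := by positivity
      linarith)
  have b4 := (SosF.sq (F := F) (G := V) (((fr_Z (K := K')).smul n1).sub (fr_α (K := K')))).smul
    (c := δ / C) (by positivity)
  refine ((((h1.add b1).add b2).add b3).add b4).congr' fun l x => ?_
  unfold nrmK
  rw [et, eZ, eα]
  have e1 : δ = δ / C * C := by field_simp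
  have e2 : δ * (K'.t l x ^ 2 + K'.Z l x ^ 2 + K'.α l x ^ 2) =
      δ / C * C * (K'.t l x ^ 2 + K'.Z l x ^ 2 + K'.α l x ^ 2) := by rw [← e1]
  rw [e2, hC]
  ring

theorem star_same {n1 : ℝ} (hn : n1 ≠ 0) {c : ℝ} (hc : 0 < c)
    (h : ∀ δ > 0, SosF F V (fun l x => S l x + δ * nrmK K l x -
        c * (K.t l x ^ 2 + (K.Z l x * 0 - K.α l x * n1) ^ 2))) : Star F V S K := by
  have hn2 : 0 < n1 ^ 2 := by positivity
  set c' : ℝ := min c (c * n1 ^ 2) with hc'
  have hc'0 : 0 < c' := lt_min hc (by positivity)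
  refine ⟨c', hc'0, fun δ hδ => ?_⟩
  have b1 := (sos_t (K := K) (F := F) (V := V)).smul (c := c - c')
    (by have : c' ≤ c := min_le_left _ _
        linarith)
  have b3 := (sos_α (K := K) (F := F) (V := V)).smul (c := c * n1 ^ 2 - c')
    (by have : c' ≤ c * n1 ^ 2 := min_le_right _ _
        linarith)
  refine (((h δ hδ).add b1).add b3).congr' fun l x => ?_
  unfold nrmK
  ring

end Abstract

section Geo

variable {e z f w : Fin 4 → ℝ} {ζ : (Fin 4 → ℝ) →ₗ[ℝ] ℝ} {p : MvPolynomial (Fin 4) ℝ}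
  {U V : Ultrafilter (Fin 4 → ℝ)}

theorem crd_t_symm (y : Fin 4 → ℝ) : (crd e z f w).y0 y = (crd e z f w).x0 y := rfl

theorem tx0 (h : LinearIndependent ℝ ![z, e, f, w]) :
    Tendsto (crd e z f w).x0 (𝓝 z) (𝓝 0) := by
  have h1 := (co_tendsto h 1).div (co_tendsto h 0) one_ne_zero
  have h2 : (![1, 0, 0, 0] : Fin 4 → ℝ) 1 / (![1, 0, 0, 0] : Fin 4 → ℝ) 0 = 0 := by simp
  rw [h2] at h1
  exact h1

theorem tb (h : LinearIndependent ℝ ![z, e, f, w]) :
    Tendsto (crd e z f w).b (𝓝 z) (𝓝 0) := by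
  have h1 := (co_tendsto h 2).div (co_tendsto h 0) one_ne_zero
  have h2 : (![1, 0, 0, 0] : Fin 4 → ℝ) 2 / (![1, 0, 0, 0] : Fin 4 → ℝ) 0 = 0 := by simp
  rw [h2] at h1
  exact h1

theorem ta (h : LinearIndependent ℝ ![z, e, f, w]) :
    Tendsto (crd e z f w).a (𝓝 z) (𝓝 0) := by
  have h1 := (co_tendsto h 3).div (co_tendsto h 0) one_ne_zero
  have h2 : (![1, 0, 0, 0] : Fin 4 → ℝ) 3 / (![1, 0, 0, 0] : Fin 4 → ℝ) 0 = 0 := by simp
  rw [h2] at h1
  exact h1

theorem tc (h : LinearIndependent ℝ ![z, e, f, w]) :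
    Tendsto (fun y => co e z f w y 0) (𝓝 z) (𝓝 1) := co_tendsto h 0

/-- the factor of the shift -/
noncomputable def ush (e z f w : Fin 4 → ℝ) (κ : ℝ) (y : Fin 4 → ℝ) : ℝ :=
  (1 - κ * (crd e z f w).b y)⁻¹

theorem tush (h : LinearIndependent ℝ ![z, e, f, w]) (κ : ℝ) :
    Tendsto (ush e z f w κ) (𝓝 z) (𝓝 1) := by
  have h1 : Tendsto (fun y => (1 - κ * (crd e z f w).b y)⁻¹) (𝓝 z) (𝓝 (1 - κ * 0)⁻¹) :=
    (tendsto_const_nhds.sub ((tb h).const_mul κ)).inv₀ (by simp)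
  have h2 : (1 - κ * 0)⁻¹ = (1 : ℝ) := by norm_num
  rw [h2] at h1
  exact h1

theorem ush_ev (h : LinearIndependent ℝ ![z, e, f, w]) (κ : ℝ) :
    ∀ᶠ y in 𝓝 z, co e z f w y 0 ≠ 0 ∧ 1 - κ * (crd e z f w).b y ≠ 0 := by
  have h1 : Tendsto (fun y => 1 - κ * (crd e z f w).b y) (𝓝 z) (𝓝 (1 - κ * 0)) :=
    tendsto_const_nhds.sub ((tb h).const_mul κ)
  have h2 : ∀ᶠ y in 𝓝 z, (0 : ℝ) < co e z f w y 0 := (tc h).eventually (lt_mem_nhds one_pos)
  have h3 : ∀ᶠ y in 𝓝 z, (0 : ℝ) < 1 - κ * (crd e z f w).b y :=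
    h1.eventually (lt_mem_nhds (by simp))
  filter_upwards [h2, h3] with y h4 h5
  exact ⟨h4.ne', h5.ne'⟩

theorem crd_shift (hz : ζ z = 0) (h : Fr e z ζ f w) {k : ℝ} (hk : k ≠ 0) (c : ℝ) {m : ℝ}
    (hm : m ≠ 0) {y : Fin 4 → ℝ} (hy : co e z f w y 0 ≠ 0)
    (hy' : 1 - c / k * (crd e z f w).b y ≠ 0) :
    (crd e z (k • f + c • z) (m • w)).x0 y = ush e z f w (c / k) y * (crd e z f w).x0 y ∧
    (crd e z (k • f + c • z) (m • w)).b y = ush e z f w (c / k) y * ((crd e z f w).b y / k) ∧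
    (crd e z (k • f + c • z) (m • w)).a y = ush e z f w (c / k) y * ((crd e z f w).a y / m) := by
  obtain ⟨h0, h1, h2, h3⟩ := co_shift hz h hk c hm y
  have e0 : co e z (k • f + c • z) (m • w) y 0 =
      co e z f w y 0 * (1 - c / k * (crd e z f w).b y) := by
    rw [h0]
    show _ = co e z f w y 0 * (1 - c / k * (co e z f w y 2 / co e z f w y 0))
    field_simp
  refine ⟨?_, ?_, ?_⟩
  · show co e z (k • f + c • z) (m • w) y 1 / co e z (k • f + c • z) (m • w) y 0 = _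
    rw [e0, h1]
    show _ = (1 - c / k * (crd e z f w).b y)⁻¹ * (co e z f w y 1 / co e z f w y 0)
    rw [inv_mul_eq_div, div_div]
  · show co e z (k • f + c • z) (m • w) y 2 / co e z (k • f + c • z) (m • w) y 0 = _
    rw [e0, h2]
    show _ = (1 - c / k * (crd e z f w).b y)⁻¹ * (co e z f w y 2 / co e z f w y 0 / k)
    rw [div_eq_mul_inv _ (co e z f w y 0 * _), mul_inv]
    ring
  · show co e z (k • f + c • z) (m • w) y 3 / co e z (k • f + c • z) (m • w) y 0 = _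
    rw [e0, h3]
    show _ = (1 - c / k * (crd e z f w).b y)⁻¹ * (co e z f w y 3 / co e z f w y 0 / m)
    rw [div_eq_mul_inv _ (co e z f w y 0 * _), mul_inv]
    ring

/-- **shift of (STAR)** -/
theorem star_shift {S : (Fin 4 → ℝ) → (Fin 4 → ℝ) → ℝ} (hU : (U : Filter (Fin 4 → ℝ)) ≤ 𝓝 z)
    (hV : (V : Filter (Fin 4 → ℝ)) ≤ 𝓝 z) (hz : ζ z = 0) (h : Fr e z ζ f w) {k : ℝ}
    (hk : k ≠ 0) (c : ℝ) {m : ℝ} (hm : m ≠ 0)
    (hS : Star (U : Filter (Fin 4 → ℝ)) (V : Filter (Fin 4 → ℝ)) S (crd e z f w)) :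
    Star (U : Filter (Fin 4 → ℝ)) (V : Filter (Fin 4 → ℝ)) S
      (crd e z (k • f + c • z) (m • w)) := by
  set κ := c / k with hκ
  set u := ush e z f w κ with hu
  have hli := h.li
  have gl : GermFR (U : Filter (Fin 4 → ℝ)) (V : Filter (Fin 4 → ℝ))
      (fun l (_ : Fin 4 → ℝ) => u l) 1 := GermFR.left ((tush hli κ).mono_left hU)
  have gr : GermFR (U : Filter (Fin 4 → ℝ)) (V : Filter (Fin 4 → ℝ))
      (fun (_ : Fin 4 → ℝ) x => u x) 1 := GermFR.right ((tush hli κ).mono_left hV)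
  have gx0 : GermFR (U : Filter (Fin 4 → ℝ)) (V : Filter (Fin 4 → ℝ))
      (fun l (_ : Fin 4 → ℝ) => (crd e z f w).x0 l) 0 := GermFR.left ((tx0 hli).mono_left hU)
  have ga : GermFR (U : Filter (Fin 4 → ℝ)) (V : Filter (Fin 4 → ℝ))
      (fun l (_ : Fin 4 → ℝ) => (crd e z f w).a l) 0 := GermFR.left ((ta hli).mono_left hU)
  have gA : ∀ y, ush e z f w κ y = (1 - κ * (crd e z f w).b y)⁻¹ := fun _ => rfl
  refine star_transfer (K := crd e z f w)
    (g11 := fun l x => u x) (g12 := fun l x => κ * (u l * u x * (crd e z f w).x0 l))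
    (g22 := fun l x => k⁻¹ * (u l * u x))
    (g32 := fun l x => (m⁻¹ * κ) * (u l * u x * (crd e z f w).a l))
    (g33 := fun l x => m⁻¹ * u x)
    (l1 := 1) (l2 := k⁻¹) (l3 := m⁻¹) gr
    ((((gl.mul gr).mul gx0).smul κ).congr (fun l x => rfl) (by ring))
    (((gl.mul gr).smul k⁻¹).congr (fun l x => rfl) (by ring))
    ((((gl.mul gr).mul ga).smul (m⁻¹ * κ)).congr (fun l x => rfl) (by ring))
    ((gr.smul m⁻¹).congr (fun l x => rfl) (by ring)) one_ne_zero (inv_ne_zero hk)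
    (inv_ne_zero hm) ?_ ?_ ?_ hS
  · refine EqF.of_eventually _ _ (hU (ush_ev hli κ)) (hV (ush_ev hli κ)) fun l x hl hx => ?_
    show (crd e z (k • f + c • z) (m • w)).x0 x - (crd e z (k • f + c • z) (m • w)).x0 l =
      u x * ((crd e z f w).x0 x - (crd e z f w).x0 l) +
        κ * (u l * u x * (crd e z f w).x0 l) * ((crd e z f w).b x - (crd e z f w).b l)
    rw [(crd_shift hz h hk c hm hl.1 hl.2).1, (crd_shift hz h hk c hm hx.1 hx.2).1]
    simp only [hu, gA, ← hκ]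
    have h1 := hl.2
    have h2 := hx.2
    field_simp
    ring
  · refine EqF.of_eventually _ _ (hU (ush_ev hli κ)) (hV (ush_ev hli κ)) fun l x hl hx => ?_
    show (crd e z (k • f + c • z) (m • w)).b x - (crd e z (k • f + c • z) (m • w)).b l =
      k⁻¹ * (u l * u x) * ((crd e z f w).b x - (crd e z f w).b l)
    rw [(crd_shift hz h hk c hm hl.1 hl.2).2.1, (crd_shift hz h hk c hm hx.1 hx.2).2.1]
    simp only [hu, gA, ← hκ]
    have h1 := hl.2
    have h2 := hx.2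
    field_simp
    ring
  · refine EqF.of_eventually _ _ (hU (ush_ev hli κ)) (hV (ush_ev hli κ)) fun l x hl hx => ?_
    show (crd e z (k • f + c • z) (m • w)).a x - (crd e z (k • f + c • z) (m • w)).a l =
      m⁻¹ * u x * ((crd e z f w).a x - (crd e z f w).a l) +
        (m⁻¹ * κ) * (u l * u x * (crd e z f w).a l) * ((crd e z f w).b x - (crd e z f w).b l)
    rw [(crd_shift hz h hk c hm hl.1 hl.2).2.2, (crd_shift hz h hk c hm hx.1 hx.2).2.2]
    simp only [hu, gA, ← hκ]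
    have h1 := hl.2
    have h2 := hx.2
    field_simp
    ring

theorem span_ker (hζe : ζ e = 1) (hζz : ζ z = 0) (h : Fr e z ζ f w) {v : Fin 4 → ℝ}
    (hv : ζ v = 0) : ∃ c b a : ℝ, v = c • z + b • f + a • w := by
  have h1 := co_spec h.li v
  have h2 : co e z f w v 1 = 0 := by
    have h3 := congrArg ζ h1
    rw [map_add, map_add, map_add, map_smul, map_smul, map_smul, map_smul, hζz, hζe, h.ζf, h.ζw,
      hv] at h3
    simpa using h3
  refine ⟨co e z f w v 0, co e z f w v 2, co e z f w v 3, ?_⟩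
  rw [h2, zero_smul, add_zero] at h1
  exact h1.symm

/-- the contact rule for the pencil of a frame -/
theorem cr_of_pen {ι : Type} [Fintype ι] [DecidableEq ι] (C : Ctx p e z U V ζ) (hζe : ζ e = 1)
    (hζz : ζ z = 0) (h : Fr e z ζ f w)
    (R : KRep ι (U : Filter (Fin 4 → ℝ)) (V : Filter (Fin 4 → ℝ)) (sl p e) (crd e z f w))
    (hP : IsPen p e f w z R.B R.D R.G1 R.H R.DH) : CRweak R ∧ CRstrict R := by
  have hz : z ∈ hypCone p e := C.hz.1
  have hD := Dxi0 R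
  obtain ⟨d, hd⟩ := C.hyp.1
  have hξ : R.ξ0 ≠ 0 := by
    intro h0
    have := R.nrm0
    rw [h0, dotProduct_zero] at this
    exact zero_ne_one this
  constructor
  · intro Z α
    obtain ⟨q, hq⟩ := (H975.contact_isPen C.hyp hz hP hD Z α).1
    exact ⟨q, hq⟩
  · obtain ⟨b, a, hba⟩ := H760.exists_dir_ne hd C.irr C.hz0 ζ hζz hζe (f := f) (w := w)
      (fun v hv => span_ker hζe hζz h hv)
    rcases (H975.contact_isPen C.hyp hz hP hD b a).2 hξ with h1 | ⟨q, hq⟩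
    · exact absurd (Frequently.mono hba fun τ hτ => hτ (h1 τ)) (by simp)
    · exact ⟨b, a, q, hq⟩

/-- the case `a = 0` -/
theorem a_zero {ι : Type} [Fintype ι] [DecidableEq ι] (C : Ctx p e z U V ζ) (hζe : ζ e = 1)
    (hζz : ζ z = 0) (hζK : ∀ x ∈ hypCone p e, 0 ≤ ζ x) (h : Fr e z ζ f w)
    (R : KRep ι (U : Filter (Fin 4 → ℝ)) (V : Filter (Fin 4 → ℝ)) (sl p e) (crd e z f w))
    (hB : R.B *ᵥ R.ξ0 = 0) (ha : ∀ᶠ y in (U : Filter (Fin 4 → ℝ)), (crd e z f w).a y = 0) :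
    SosF (U : Filter (Fin 4 → ℝ)) (V : Filter (Fin 4 → ℝ)) (sl p e) := by
  have hD := Dxi0 R
  have h1 : ∀ᶠ y in (U : Filter (Fin 4 → ℝ)), (crd e z f w).x0 y = 0 := by
    filter_upwards [ha, R.ker, R.nrm] with y hy hk hn
    have h2 : R.ξ0 ⬝ᵥ (Mf R.B R.D R.G1 R.H ((crd e z f w).x0 y) ((crd e z f w).b y)
        ((crd e z f w).a y) *ᵥ R.ξ y) = 0 := by rw [hk, dotProduct_zero]
    rw [hy] at h2
    have h3 : Mf R.B R.D R.G1 R.H ((crd e z f w).x0 y) ((crd e z f w).b y) 0 =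
        (crd e z f w).x0 y • (1 : Matrix ι ι ℝ) + (crd e z f w).b y • R.B + R.D := by
      simp [Mf, Gs]
    rw [h3, Matrix.add_mulVec, Matrix.add_mulVec, Matrix.smul_mulVec, Matrix.smul_mulVec,
      Matrix.one_mulVec, dotProduct_add, dotProduct_add, dotProduct_smul, dotProduct_smul, hn,
      herm_swap R.symB, herm_swap R.psdD.1, hB, hD, dotProduct_zero, smul_zero, add_zero,
      add_zero, smul_eq_mul, mul_one] at h2
    exact h2
  have h0 : ∀ᶠ y in (U : Filter (Fin 4 → ℝ)), co e z f w y 0 ≠ 0 :=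
    Filter.Eventually.mono (C.hU (ush_ev h.li 0)) fun y hy => hy.1
  have h2 : ∀ᶠ y in (U : Filter (Fin 4 → ℝ)), y ∈ smT p e ∧ ζ y = 0 := by
    filter_upwards [h1, h0, ha, C.sU] with y hy hy0 hya hys
    refine ⟨hys, ?_⟩
    rw [crd_spec h.li hy0, hy, map_smul, map_add, map_add, map_add, map_smul, map_smul, map_smul,
      hζz, h.ζf, h.ζw]
    simp
  have h3 : ∀ᶠ x in (V : Filter (Fin 4 → ℝ)), 0 ≤ ζ x :=
    Filter.mem_of_superset C.sV fun x hx => hζK x hx.1.1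
  refine (SosF.right (F := (U : Filter (Fin 4 → ℝ))) h3).congr ?_
  refine EqF.of_eventually _ (fun _ => True) h2 (by simp) fun y x hy _ => ?_
  exact H760.grad_eq C.hyp hζe hζK hy.1 hy.2 x

/-- **Section 3**: the flat line -/
theorem flat_line (C : Ctx p e z U V ζ) (hζe : ζ e = 1) (hζz : ζ z = 0)
    (hζK : ∀ x ∈ hypCone p e, 0 ≤ ζ x) (hfr : ∃ f w, Fr e z ζ f w)
    (hrep : ∀ f w, Fr e z ζ f w → ∃ (ι : Type) (_ : Fintype ι) (_ : DecidableEq ι)
      (R : KRep ι (U : Filter (Fin 4 → ℝ)) (V : Filter (Fin 4 → ℝ)) (sl p e) (crd e z f w)),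
      IsPen p e f w z R.B R.D R.G1 R.H R.DH) :
    SosF (U : Filter (Fin 4 → ℝ)) (V : Filter (Fin 4 → ℝ)) (sl p e) ∨
    ∃ f w, Fr e z ζ f w ∧ ∀ k c m : ℝ, k ≠ 0 → 0 < m →
      Fr e z ζ (k • f + c • z) (m • w) ∧
      Star (U : Filter (Fin 4 → ℝ)) (V : Filter (Fin 4 → ℝ)) (sl p e)
        (crd e z (k • f + c • z) (m • w)) ∧
      (∀ᶠ y in (U : Filter (Fin 4 → ℝ)), 0 < (crd e z (k • f + c • z) (m • w)).a y) ∧
      ∀ (ι : Type) (_ : Fintype ι) (_ : DecidableEq ι)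
        (R : KRep ι (U : Filter (Fin 4 → ℝ)) (V : Filter (Fin 4 → ℝ)) (sl p e)
          (crd e z (k • f + c • z) (m • w))),
        IsPen p e (k • f + c • z) (m • w) z R.B R.D R.G1 R.H R.DH →
          R.B *ᵥ R.ξ0 = 0 ∧ R.G1 *ᵥ R.ξ0 ≠ 0 := by
  by_cases hT : SosF (U : Filter (Fin 4 → ℝ)) (V : Filter (Fin 4 → ℝ)) (sl p e)
  · exact Or.inl hT
  right
  -- a frame with (STAR)
  obtain ⟨f, w, hfw, hst⟩ : ∃ f w, Fr e z ζ f w ∧ Star (U : Filter (Fin 4 → ℝ))
      (V : Filter (Fin 4 → ℝ)) (sl p e) (crd e z f w) := by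
    obtain ⟨f, w, h⟩ := hfr
    obtain ⟨ι, _, _, R, hP⟩ := hrep f w h
    obtain ⟨c1, c2⟩ := cr_of_pen C hζe hζz h R hP
    rcases krep_star R c1 c2 with h1 | ⟨n1, n2, hn, -, c, hc, hst⟩
    · exact absurd h1 hT
    by_cases h2 : n2 = 0
    · subst h2
      have hn1 : n1 ≠ 0 := by
        rcases hn with h | h
        · exact h
        · exact absurd rfl h
      exact ⟨f, w, h, star_same hn1 hc hst⟩
    · refine ⟨n1 • f + n2 • w, f, fr_exch h n1 h2, star_exch h2 (K := crd e z f w)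
        (K' := crd e z (n1 • f + n2 • w) f) (fun l x => ?_) (fun l x => ?_) (fun l x => ?_)
        hc hst⟩
      · obtain ⟨a0, a1, a2, a3⟩ := co_exch h n1 h2 l
        obtain ⟨b0, b1, b2, b3⟩ := co_exch h n1 h2 x
        show co e z f w x 1 / co e z f w x 0 - co e z f w l 1 / co e z f w l 0 =
          co e z (n1 • f + n2 • w) f x 1 / co e z (n1 • f + n2 • w) f x 0 -
          co e z (n1 • f + n2 • w) f l 1 / co e z (n1 • f + n2 • w) f l 0
        rw [a0, a1, b0, b1]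
      · obtain ⟨a0, a1, a2, a3⟩ := co_exch h n1 h2 l
        obtain ⟨b0, b1, b2, b3⟩ := co_exch h n1 h2 x
        show co e z f w x 2 / co e z f w x 0 - co e z f w l 2 / co e z f w l 0 =
          n1 * (co e z (n1 • f + n2 • w) f x 2 / co e z (n1 • f + n2 • w) f x 0 -
          co e z (n1 • f + n2 • w) f l 2 / co e z (n1 • f + n2 • w) f l 0) +
          (co e z (n1 • f + n2 • w) f x 3 / co e z (n1 • f + n2 • w) f x 0 -
          co e z (n1 • f + n2 • w) f l 3 / co e z (n1 • f + n2 • w) f l 0)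
        rw [a0, a2, b0, b2]
        ring
      · obtain ⟨a0, a1, a2, a3⟩ := co_exch h n1 h2 l
        obtain ⟨b0, b1, b2, b3⟩ := co_exch h n1 h2 x
        show co e z f w x 3 / co e z f w x 0 - co e z f w l 3 / co e z f w l 0 =
          n2 * (co e z (n1 • f + n2 • w) f x 2 / co e z (n1 • f + n2 • w) f x 0 -
          co e z (n1 • f + n2 • w) f l 2 / co e z (n1 • f + n2 • w) f l 0)
        rw [a0, a3, b0, b3]
        ring
  -- facts in every frame with (STAR)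
  have hfacts : ∀ f w, Fr e z ζ f w → Star (U : Filter (Fin 4 → ℝ))
      (V : Filter (Fin 4 → ℝ)) (sl p e) (crd e z f w) →
      ∀ (ι : Type) (_ : Fintype ι) (_ : DecidableEq ι)
        (R : KRep ι (U : Filter (Fin 4 → ℝ)) (V : Filter (Fin 4 → ℝ)) (sl p e)
          (crd e z f w)), IsPen p e f w z R.B R.D R.G1 R.H R.DH →
          R.B *ᵥ R.ξ0 = 0 ∧ R.G1 *ᵥ R.ξ0 ≠ 0 := by
    intro f w h hS ι _ _ R hP
    obtain ⟨c1, c2⟩ := cr_of_pen C hζe hζz h R hP
    have hB := (star_null R c1 c2 hS).resolve_left hT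
    exact ⟨hB, (g_ne R c2 hB).resolve_left hT⟩
  -- the sign of `a`
  have hsign : (∀ᶠ y in (U : Filter (Fin 4 → ℝ)), 0 < (crd e z f w).a y) ∨
      ∀ᶠ y in (U : Filter (Fin 4 → ℝ)), (crd e z f w).a y < 0 := by
    obtain ⟨ι, _, _, R, hP⟩ := hrep f w hfw
    have hB := (hfacts f w hfw hst ι _ _ R hP).1
    by_contra hcon
    push Not at hcon
    apply hT
    refine a_zero C hζe hζz hζK hfw R hB ?_
    filter_upwards [hcon.1, hcon.2] with y h3 h4
    exact le_antisymm h3 h4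
  -- the conclusion for a frame with `a > 0`
  have hfin : ∀ f w, Fr e z ζ f w → Star (U : Filter (Fin 4 → ℝ))
      (V : Filter (Fin 4 → ℝ)) (sl p e) (crd e z f w) →
      (∀ᶠ y in (U : Filter (Fin 4 → ℝ)), 0 < (crd e z f w).a y) →
      ∀ k c m : ℝ, k ≠ 0 → 0 < m →
      Fr e z ζ (k • f + c • z) (m • w) ∧
      Star (U : Filter (Fin 4 → ℝ)) (V : Filter (Fin 4 → ℝ)) (sl p e)
        (crd e z (k • f + c • z) (m • w)) ∧
      (∀ᶠ y in (U : Filter (Fin 4 → ℝ)), 0 < (crd e z (k • f + c • z) (m • w)).a y) ∧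
      ∀ (ι : Type) (_ : Fintype ι) (_ : DecidableEq ι)
        (R : KRep ι (U : Filter (Fin 4 → ℝ)) (V : Filter (Fin 4 → ℝ)) (sl p e)
          (crd e z (k • f + c • z) (m • w))),
        IsPen p e (k • f + c • z) (m • w) z R.B R.D R.G1 R.H R.DH →
          R.B *ᵥ R.ξ0 = 0 ∧ R.G1 *ᵥ R.ξ0 ≠ 0 := by
    intro f w h hS ha k c m hk hm
    have h1 := fr_shift hζz h hk c hm.ne'
    have h2 := star_shift C.hU C.hV hζz h hk c hm.ne' hS
    refine ⟨h1, h2, ?_, hfacts _ _ h1 h2⟩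
    have h3 : ∀ᶠ y in (U : Filter (Fin 4 → ℝ)), 0 < ush e z f w (c / k) y :=
      ((tush h.li (c / k)).mono_left C.hU).eventually (lt_mem_nhds one_pos)
    filter_upwards [ha, h3, C.hU (ush_ev h.li (c / k))] with y hy1 hy2 hy3
    rw [(crd_shift hζz h hk c hm.ne' hy3.1 hy3.2).2.2]
    positivity
  rcases hsign with ha | ha
  · exact ⟨f, w, hfw, hfin f w hfw hst ha⟩
  · have hm : (-1 : ℝ) ≠ 0 := by norm_num
    have h1 := fr_shift hζz hfw (one_ne_zero (α := ℝ)) 0 hm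
    have h2 := star_shift C.hU C.hV hζz hfw (one_ne_zero (α := ℝ)) 0 hm hst
    refine ⟨_, _, h1, hfin _ _ h1 h2 ?_⟩
    have h3 : ∀ᶠ y in (U : Filter (Fin 4 → ℝ)), 0 < ush e z f w (0 / 1) y :=
      ((tush hfw.li (0 / 1)).mono_left C.hU).eventually (lt_mem_nhds one_pos)
    filter_upwards [ha, h3, C.hU (ush_ev hfw.li (0 / 1))] with y hy1 hy2 hy3
    rw [(crd_shift hζz hfw one_ne_zero 0 hm hy3.1 hy3.2).2.2]
    have : 0 < (crd e z f w).a y / -1 := div_pos_of_neg_of_neg hy1 (by norm_num)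
    positivity

end Geo

end Vale.Agent.P256.H824
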