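import Vale.Agent.P256.H387.Iface

/-! Coordinates in the frames `z, e, f, w` and their changes. -/

set_option linter.all false

namespace Vale.Agent.P256.H824

open Filter Topology Matrix Vale.Agent.P256 Vale.Agent.P256.H326
open Vale.Agent.P256.H387 hiding Dom Sml

variable {z e f w : Fin 4 → ℝ}

theorem fr_mulVec (z e f w c : Fin 4 → ℝ) :
    (Matrix.of ![z, e, f, w])ᵀ *ᵥ c = c 0 • z + c 1 • e + c 2 • f + c 3 • w := by
  funext i
  simp only [Matrix.mulVec, dotProduct, Matrix.transpose_apply, Fin.sum_univ_four,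
    Pi.add_apply, Pi.smul_apply, smul_eq_mul]
  show z i * c 0 + e i * c 1 + f i * c 2 + w i * c 3 = _
  ring

theorem li_iff : LinearIndependent ℝ ![z, e, f, w] ↔
    ∀ c0 c1 c2 c3 : ℝ, c0 • z + c1 • e + c2 • f + c3 • w = 0 →
      c0 = 0 ∧ c1 = 0 ∧ c2 = 0 ∧ c3 = 0 := by
  rw [Fintype.linearIndependent_iff]
  constructor
  · intro h c0 c1 c2 c3 hc
    have h1 := h ![c0, c1, c2, c3] (by rw [Fin.sum_univ_four]; exact hc)
    exact ⟨h1 0, h1 1, h1 2, h1 3⟩
  · intro h g hg i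
    rw [Fin.sum_univ_four] at hg
    have h1 := h (g 0) (g 1) (g 2) (g 3) hg
    fin_cases i
    · exact h1.1
    · exact h1.2.1
    · exact h1.2.2.1
    · exact h1.2.2.2

theorem fr_unit (h : LinearIndependent ℝ ![z, e, f, w]) :
    IsUnit (Matrix.of ![z, e, f, w])ᵀ.det := by
  rw [← Matrix.isUnit_iff_isUnit_det, ← Matrix.mulVec_injective_iff_isUnit]
  intro c c' hc
  simp only [fr_mulVec] at hc
  have h1 := li_iff.1 h (c 0 - c' 0) (c 1 - c' 1) (c 2 - c' 2) (c 3 - c' 3) (by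
    have h2 : (c 0 - c' 0) • z + (c 1 - c' 1) • e + (c 2 - c' 2) • f + (c 3 - c' 3) • w =
      (c 0 • z + c 1 • e + c 2 • f + c 3 • w) - (c' 0 • z + c' 1 • e + c' 2 • f + c' 3 • w) := by
      module
    rw [h2, hc, sub_self])
  funext i
  fin_cases i
  · exact sub_eq_zero.1 h1.1
  · exact sub_eq_zero.1 h1.2.1
  · exact sub_eq_zero.1 h1.2.2.1
  · exact sub_eq_zero.1 h1.2.2.2

/-- the coordinates are the coordinates -/
theorem co_spec (h : LinearIndependent ℝ ![z, e, f, w]) (y : Fin 4 → ℝ) :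
    co e z f w y 0 • z + co e z f w y 1 • e + co e z f w y 2 • f + co e z f w y 3 • w = y := by
  rw [← fr_mulVec, co, Matrix.mulVec_mulVec, Matrix.mul_nonsing_inv _ (fr_unit h),
    Matrix.one_mulVec]

theorem co_eq (h : LinearIndependent ℝ ![z, e, f, w]) (c0 c1 c2 c3 : ℝ) :
    co e z f w (c0 • z + c1 • e + c2 • f + c3 • w) = ![c0, c1, c2, c3] := by
  have h1 : c0 • z + c1 • e + c2 • f + c3 • w =
      (Matrix.of ![z, e, f, w])ᵀ *ᵥ ![c0, c1, c2, c3] := by
    rw [fr_mulVec]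
    rfl
  rw [h1, co, Matrix.mulVec_mulVec, Matrix.nonsing_inv_mul _ (fr_unit h), Matrix.one_mulVec]

/-- a point in terms of its projective coordinates -/
theorem crd_spec (h : LinearIndependent ℝ ![z, e, f, w]) {y : Fin 4 → ℝ}
    (hy : co e z f w y 0 ≠ 0) :
    y = co e z f w y 0 • (z + (crd e z f w).x0 y • e + (crd e z f w).b y • f +
      (crd e z f w).a y • w) := by
  conv_lhs => rw [← co_spec h y]
  have h1 : ∀ i, co e z f w y i = co e z f w y 0 * (co e z f w y i / co e z f w y 0) := by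
    intro i; field_simp
  show _ = co e z f w y 0 • (z + (co e z f w y 1 / co e z f w y 0) • e +
    (co e z f w y 2 / co e z f w y 0) • f + (co e z f w y 3 / co e z f w y 0) • w)
  rw [smul_add, smul_add, smul_add, smul_smul, smul_smul, smul_smul, ← h1, ← h1, ← h1]

theorem co_tendsto (h : LinearIndependent ℝ ![z, e, f, w]) (i : Fin 4) :
    Tendsto (fun y => co e z f w y i) (𝓝 z) (𝓝 ((![1, 0, 0, 0] : Fin 4 → ℝ) i)) := by
  have h1 : co e z f w z = ![1, 0, 0, 0] := by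
    have h2 := co_eq h 1 0 0 0
    have h3 : (1 : ℝ) • z + (0 : ℝ) • e + (0 : ℝ) • f + (0 : ℝ) • w = z := by module
    rw [h3] at h2
    exact h2
  have h2 : Continuous fun y => co e z f w y i := by
    simp only [co, Matrix.mulVec, dotProduct]
    exact continuous_finsetSum _ fun j _ => continuous_const.mul (continuous_apply j)
  have h3 := h2.tendsto z
  rw [h1] at h3
  exact h3

/-- exchange: frame `(n₁ f + n₂ w, f)` in terms of the frame `(f, w)` -/
theorem fr_exch {ζ : (Fin 4 → ℝ) →ₗ[ℝ] ℝ} (h : Fr e z ζ f w) (n1 : ℝ) {n2 : ℝ} (hn : n2 ≠ 0) :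
    Fr e z ζ (n1 • f + n2 • w) f := by
  refine ⟨li_iff.2 fun c0 c1 c2 c3 hc => ?_, ?_, h.ζf⟩
  · have h1 := li_iff.1 h.li c0 c1 (c2 * n1 + c3) (c2 * n2) (by rw [← hc]; module)
    have h2 : c2 = 0 := by
      rcases mul_eq_zero.1 h1.2.2.2 with h | h
      · exact h
      · exact absurd h hn
    refine ⟨h1.1, h1.2.1, h2, ?_⟩
    have h3 := h1.2.2.1
    rw [h2, zero_mul, zero_add] at h3
    exact h3
  · rw [map_add, map_smul, map_smul, h.ζf, h.ζw, smul_zero, smul_zero, add_zero]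

theorem co_exch {ζ : (Fin 4 → ℝ) →ₗ[ℝ] ℝ} (h : Fr e z ζ f w) (n1 : ℝ) {n2 : ℝ} (hn : n2 ≠ 0)
    (y : Fin 4 → ℝ) :
    co e z f w y 0 = co e z (n1 • f + n2 • w) f y 0 ∧
    co e z f w y 1 = co e z (n1 • f + n2 • w) f y 1 ∧
    co e z f w y 2 = co e z (n1 • f + n2 • w) f y 2 * n1 + co e z (n1 • f + n2 • w) f y 3 ∧
    co e z f w y 3 = co e z (n1 • f + n2 • w) f y 2 * n2 := by
  have h1 := co_spec (fr_exch h n1 hn).li y
  set c := co e z (n1 • f + n2 • w) f y with hc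
  have h2 := co_eq h.li (c 0) (c 1) (c 2 * n1 + c 3) (c 2 * n2)
  have h3 : c 0 • z + c 1 • e + (c 2 * n1 + c 3) • f + (c 2 * n2) • w = y := by
    rw [← h1]; module
  rw [h3] at h2
  rw [h2]
  exact ⟨rfl, rfl, rfl, rfl⟩

/-- shift: frame `(k f + c z, m w)` -/
theorem fr_shift {ζ : (Fin 4 → ℝ) →ₗ[ℝ] ℝ} (hz : ζ z = 0) (h : Fr e z ζ f w) {k : ℝ}
    (hk : k ≠ 0) (c : ℝ) {m : ℝ} (hm : m ≠ 0) : Fr e z ζ (k • f + c • z) (m • w) := by
  refine ⟨li_iff.2 fun c0 c1 c2 c3 hc => ?_, ?_, ?_⟩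
  · have h1 := li_iff.1 h.li (c0 + c2 * c) c1 (c2 * k) (c3 * m) (by rw [← hc]; module)
    have h2 : c2 = 0 := by
      rcases mul_eq_zero.1 h1.2.2.1 with h | h
      · exact h
      · exact absurd h hk
    have h3 : c3 = 0 := by
      rcases mul_eq_zero.1 h1.2.2.2 with h | h
      · exact h
      · exact absurd h hm
    refine ⟨?_, h1.2.1, h2, h3⟩
    have h4 := h1.1
    rw [h2, zero_mul, add_zero] at h4
    exact h4
  · rw [map_add, map_smul, map_smul, h.ζf, hz, smul_zero, smul_zero, add_zero]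
  · rw [map_smul, h.ζw, smul_zero]

theorem co_shift {ζ : (Fin 4 → ℝ) →ₗ[ℝ] ℝ} (hz : ζ z = 0) (h : Fr e z ζ f w) {k : ℝ}
    (hk : k ≠ 0) (c : ℝ) {m : ℝ} (hm : m ≠ 0) (y : Fin 4 → ℝ) :
    co e z (k • f + c • z) (m • w) y 0 = co e z f w y 0 - c / k * co e z f w y 2 ∧
    co e z (k • f + c • z) (m • w) y 1 = co e z f w y 1 ∧
    co e z (k • f + c • z) (m • w) y 2 = co e z f w y 2 / k ∧
    co e z (k • f + c • z) (m • w) y 3 = co e z f w y 3 / m := by
  have h1 := co_spec h.li y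
  set d := co e z f w y with hd
  have h2 := co_eq (fr_shift hz h hk c hm).li (d 0 - c / k * d 2) (d 1) (d 2 / k) (d 3 / m)
  have h3 : (d 0 - c / k * d 2) • z + d 1 • e + (d 2 / k) • (k • f + c • z) +
      (d 3 / m) • (m • w) = y := by
    rw [← h1]
    have e1 : (d 2 / k) • (k • f + c • z) = d 2 • f + (c / k * d 2) • z := by
      rw [smul_add, smul_smul, smul_smul, div_mul_cancel₀ _ hk]
      congr 2
      ring
    have e2 : (d 3 / m) • (m • w) = d 3 • w := by rw [smul_smul, div_mul_cancel₀ _ hm]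
    rw [e1, e2]
    module
  rw [h3] at h2
  rw [h2]
  exact ⟨rfl, rfl, rfl, rfl⟩

end Vale.Agent.P256.H824
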