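import Vale.Agent.P256.H824.Star
import Vale.Agent.P256.H824.Coord
import Vale.Agent.P256.H975.Pen
import Vale.Agent.P256.H760.Plane

/-! Section 3: reduction to a flat line. -/

set_option linter.all false

namespace Vale.Agent.P256.H824

open MvPolynomial Filter Topology Matrix Vale.Agent.P256 Vale.Agent.P256.H326
open Vale.Agent.P256.H387 hiding Dom Sml
open Vale.Agent.P256.H201 (Dom Sml germ_fr)

section Abstract

variable {L X : Type} {F : Filter L} {V : Filter X} {S : L → X → ℝ} {K K' : Crd L X}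
  {ι : Type} [Fintype ι] [DecidableEq ι]

/-- `(g₁ r + g₂ Z)² ≤ A r² + η Z²` if `g₁² < A / 2`, `g₂ → 0` -/
theorem lin_le {r Z r' g1 g2 : L → X → ℝ} (hr : FR r) (hZ : FR Z) {l1 : ℝ}
    (h1 : GermFR F V g1 l1) (h2 : GermFR F V g2 0)
    (he : EqF F V r' (fun l x => g1 l x * r l x + g2 l x * Z l x)) {A η : ℝ}
    (hA : 2 * l1 ^ 2 < A) (hη : 0 < η) :
    SosF F V (fun l x => A * r l x ^ 2 + η * Z l x ^ 2 - r' l x ^ 2) := by
  have s1 : SosF F V (fun l x => A - 2 * (g1 l x * g1 l x)) :=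
    GermFR.sosF ((GermFR.const A).sub ((h1.mul h1).smul 2)) (by nlinarith)
  have s2 : SosF F V (fun l x => η - 2 * (g2 l x * g2 l x)) :=
    GermFR.sosF ((GermFR.const η).sub ((h2.mul h2).smul 2)) (by nlinarith)
  have s3 : SosF F V (fun l x => (g1 l x * r l x - g2 l x * Z l x) ^ 2) :=
    SosF.sq (((germ_fr h1).mul hr).sub ((germ_fr h2).mul hZ))
  refine (((s1.mul (SosF.sq hr)).add (s2.mul (SosF.sq hZ))).add s3).congr ?_
  obtain ⟨A1, hA1, B1, hB1, e1⟩ := he
  refine ⟨A1, hA1, B1, hB1, fun l hl x hx => ?_⟩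
  beta_reduce
  rw [e1 l hl x hx]
  ring

/-- transfer of (STAR) under a change of the frame -/
theorem star_transfer {g11 g12 g22 g32 g33 : L → X → ℝ} {l1 l2 l3 : ℝ}
    (h11 : GermFR F V g11 l1) (h12 : GermFR F V g12 0) (h22 : GermFR F V g22 l2)
    (h32 : GermFR F V g32 0) (h33 : GermFR F V g33 l3) (n1 : l1 ≠ 0) (n2 : l2 ≠ 0)
    (n3 : l3 ≠ 0)
    (et : EqF F V (fun l x => K'.t l x) (fun l x => g11 l x * K.t l x + g12 l x * K.Z l x))
    (eZ : EqF F V (fun l x => K'.Z l x) (fun l x => g22 l x * K.Z l x))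
    (eα : EqF F V (fun l x => K'.α l x) (fun l x => g33 l x * K.α l x + g32 l x * K.Z l x))
    (hS : Star F V S K) : Star F V S K' := by
  -- the inverse inequality
  have hZd : Dom F V (fun l x => K.Z l x) (nrmK K') := by
    have hj : GermFR F V (fun l x => l2⁻¹ * g22 l x - 1) 0 :=
      ((h22.smul l2⁻¹).sub (GermFR.const 1)).congr (fun l x => rfl)
        (by rw [inv_mul_cancel₀ n2]; ring)
    refine Dom.of_unit fr_Z hj ?_
    have hd : Dom F V (fun l x => l2⁻¹ * K'.Z l x) (nrmK K') :=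
      (((Dom.self (fr_Z (K := K'))).mono (((sos_t (K := K')).add (sos_α (K := K'))).congr'
        fun l x => by unfold nrmK; ring)).smul l2⁻¹)
    refine hd.congr (((FR.const 1).add (germ_fr hj)).mul fr_Z) ?_
    obtain ⟨A1, hA1, B1, hB1, e1⟩ := eZ
    refine ⟨A1, hA1, B1, hB1, fun l hl x hx => ?_⟩
    have := e1 l hl x hx
    beta_reduce at this ⊢
    rw [this]; ring
  have htd : Dom F V (fun l x => K.t l x) (nrmK K') := by
    have hj : GermFR F V (fun l x => l1⁻¹ * g11 l x - 1) 0 :=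
      ((h11.smul l1⁻¹).sub (GermFR.const 1)).congr (fun l x => rfl)
        (by rw [inv_mul_cancel₀ n1]; ring)
    refine Dom.of_unit fr_t hj ?_
    have hd : Dom F V (fun l x => l1⁻¹ * K'.t l x) (nrmK K') :=
      (((Dom.self (fr_t (K := K'))).mono (((sos_Z (K := K')).add (sos_α (K := K'))).congr'
        fun l x => by unfold nrmK; ring)).smul l1⁻¹)
    refine (hd.sub ((hZd.germ h12).smul l1⁻¹)).congr (((FR.const 1).add (germ_fr hj)).mul fr_t) ?_
    obtain ⟨A1, hA1, B1, hB1, e1⟩ := et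
    refine ⟨A1, hA1, B1, hB1, fun l hl x hx => ?_⟩
    have := e1 l hl x hx
    beta_reduce at this ⊢
    rw [this]; ring
  have hαd : Dom F V (fun l x => K.α l x) (nrmK K') := by
    have hj : GermFR F V (fun l x => l3⁻¹ * g33 l x - 1) 0 :=
      ((h33.smul l3⁻¹).sub (GermFR.const 1)).congr (fun l x => rfl)
        (by rw [inv_mul_cancel₀ n3]; ring)
    refine Dom.of_unit fr_α hj ?_
    have hd : Dom F V (fun l x => l3⁻¹ * K'.α l x) (nrmK K') :=
      (((Dom.self (fr_α (K := K'))).mono (((sos_t (K := K')).add (sos_Z (K := K'))).congr'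
        fun l x => by unfold nrmK; ring)).smul l3⁻¹)
    refine (hd.sub ((hZd.germ h32).smul l3⁻¹)).congr (((FR.const 1).add (germ_fr hj)).mul fr_α) ?_
    obtain ⟨A1, hA1, B1, hB1, e1⟩ := eα
    refine ⟨A1, hA1, B1, hB1, fun l hl x hx => ?_⟩
    have := e1 l hl x hx
    beta_reduce at this ⊢
    rw [this]; ring
  obtain ⟨-, C1, hC1, s1⟩ := hZd
  obtain ⟨-, C2, hC2, s2⟩ := htd
  obtain ⟨-, C3, hC3, s3⟩ := hαd
  set C := C1 + C2 + C3 with hC
  have hC0 : 0 < C := by positivity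
  have hNN : SosF F V (fun l x => C * nrmK K' l x - nrmK K l x) :=
    ((s1.add s2).add s3).congr' fun l x => by
      show (C1 + C2 + C3) * nrmK K' l x - (K.t l x ^ 2 + K.Z l x ^ 2 + K.α l x ^ 2) = _
      ring
  obtain ⟨c, hc, hstar⟩ := hS
  set A1 : ℝ := 2 * l1 ^ 2 + 1 with hA1
  set A3 : ℝ := 2 * l3 ^ 2 + 1 with hA3
  set c' : ℝ := c / (A1 + A3) with hc'
  have hA10 : 0 < A1 := by positivity
  have hA30 : 0 < A3 := by positivity
  have hc'0 : 0 < c' := by positivity
  have hcA : c' * (A1 + A3) = c := by rw [hc']; field_simp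
  refine ⟨c', hc'0, fun δ hδ => ?_⟩
  set d : ℝ := δ / (2 * C) with hd
  have hd0 : 0 < d := by positivity
  have hdC : 2 * d * C = δ := by rw [hd]; field_simp
  have hη : 0 < d / (2 * c') := by positivity
  have hηc : 2 * c' * (d / (2 * c')) = d := by field_simp
  have q1 := lin_le fr_t fr_Z h11 h12 et (A := A1) (by rw [hA1]; linarith) hη
  have q3 := lin_le fr_α fr_Z h33 h32 eα (A := A3) (by rw [hA3]; linarith) hη
  have hs := hstar d hd0
  have hN0 : SosF F V (nrmK K) := sos_nrmK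
  refine ((((((hs.add (hNN.smul (c := 2 * d) (by positivity))).add (q1.smul hc'0.le)).add
    (q3.smul hc'0.le)).add ((sos_t (K := K)).smul (c := d + c' * A3) (by positivity))).add
    ((sos_α (K := K)).smul (c := d + c' * A1) (by positivity)))).congr' fun l x => ?_
  have e2 : c * (K.t l x ^ 2 + K.α l x ^ 2) = (c' * (A1 + A3)) * (K.t l x ^ 2 + K.α l x ^ 2) := by
    rw [hcA]
  have e3 : δ * (K'.t l x ^ 2 + K'.Z l x ^ 2 + K'.α l x ^ 2) =
      (2 * d * C) * (K'.t l x ^ 2 + K'.Z l x ^ 2 + K'.α l x ^ 2) := by rw [hdC]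
  have e4 : c' * (A1 * K.t l x ^ 2 + d / (2 * c') * K.Z l x ^ 2 - K'.t l x ^ 2) +
      c' * (A3 * K.α l x ^ 2 + d / (2 * c') * K.Z l x ^ 2 - K'.α l x ^ 2) =
      c' * A1 * K.t l x ^ 2 + c' * A3 * K.α l x ^ 2 + (2 * c' * (d / (2 * c'))) * K.Z l x ^ 2 -
      c' * (K'.t l x ^ 2 + K'.α l x ^ 2) := by ring
  rw [hηc] at e4
  unfold nrmK
  rw [e2, e3]
  linear_combination (-1 : ℝ) * e4

/-- a frame with (STAR) and a representation whose null line is different from the base: the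
kernel is a sum of squares -/
theorem star_null [F.NeBot] (R : KRep ι F V S K) (hw : CRweak R) (hs : CRstrict R)
    (hS : Star F V S K) : SosF F V S ∨ R.B *ᵥ R.ξ0 = 0 := by
  rcases krep_star R hw hs with h | ⟨n1, n2, hn, hN, c, hc, hst⟩
  · exact Or.inl h
  by_cases h2 : n2 = 0
  · right
    subst h2
    have hn1 : n1 ≠ 0 := by
      rcases hn with h | h
      · exact h
      · exact absurd rfl h
    have h3 : n1 • (R.B *ᵥ R.ξ0) = 0 := by
      refine eq_zero_of_qf R.psdD fun q => ?_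
      have h4 := hN q
      rw [zero_smul, add_zero] at h4
      linarith
    exact (smul_eq_zero.1 h3).resolve_left hn1
  · left
    obtain ⟨c1, hc1, hst1⟩ := hS
    -- choose the constant
    have hn2 : 0 < n2 ^ 2 := by positivity
    set k : ℝ := 2 * (1 + n1 ^ 2) / n2 ^ 2 + 1 with hk
    have hk0 : 0 < k := by positivity
    have hk2 : k * n2 ^ 2 = 2 * (1 + n1 ^ 2) + n2 ^ 2 := by
      rw [hk]; field_simp
    -- `m = min`
    set m : ℝ := min c c1 with hm
    have hm0 : 0 < m := lt_min hc hc1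
    have hmc : m ≤ c := min_le_left _ _
    have hmc1 : m ≤ c1 := min_le_right _ _
    set δ : ℝ := m / (4 * k) with hδ
    have hδ0 : 0 < δ := by positivity
    have hδk : 4 * (δ * k) = m := by rw [hδ]; field_simp
    have a1 := hst δ hδ0
    have a2 := hst1 δ hδ0
    -- `k (t² + α² + λ²) - (t² + Z² + α²)`
    have a3 : SosF F V (fun l x => k * (K.t l x ^ 2 + K.α l x ^ 2 +
        (K.Z l x * n2 - K.α l x * n1) ^ 2) - nrmK K l x) := by
      have b1 : SosF F V (fun l x =>
          ((K.Z l x * n2 - K.α l x * n1) - K.α l x * n1) ^ 2) :=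
        SosF.sq (((fr_Z.mul (FR.const n2)).sub (fr_α.mul (FR.const n1))).sub
          (fr_α.mul (FR.const n1)))
      have b2 : SosF F V (fun l x => (K.Z l x * n2 - K.α l x * n1) ^ 2) :=
        SosF.sq ((fr_Z.mul (FR.const n2)).sub (fr_α.mul (FR.const n1)))
      have hk1 : 0 ≤ k - 1 := by
        rw [hk]; have : 0 ≤ 2 * (1 + n1 ^ 2) / n2 ^ 2 := by positivity
        linarith
      have hk3 : 0 ≤ k - 1 - 2 * n1 ^ 2 / n2 ^ 2 := by
        rw [hk]
        have : 2 * (1 + n1 ^ 2) / n2 ^ 2 - 2 * n1 ^ 2 / n2 ^ 2 = 2 / n2 ^ 2 := by ring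
        have h5 : 0 ≤ 2 / n2 ^ 2 := by positivity
        linarith
      have hk4 : 0 ≤ k - 2 / n2 ^ 2 := by
        rw [hk]
        have : 2 * (1 + n1 ^ 2) / n2 ^ 2 - 2 / n2 ^ 2 = 2 * n1 ^ 2 / n2 ^ 2 := by ring
        have h5 : 0 ≤ 2 * n1 ^ 2 / n2 ^ 2 := by positivity
        linarith
      refine ((((b1.smul (c := 1 / n2 ^ 2) (by positivity)).add (b2.smul hk4)).add
        ((sos_t (K := K)).smul hk1)).add ((sos_α (K := K)).smul hk3)).congr' fun l x => ?_
      unfold nrmK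
      field_simp
      ring
    have e1 : 0 ≤ c1 - 2 * (δ * k) := by linarith
    have e2 : 0 ≤ c - 2 * (δ * k) := by linarith
    have b3 := (((sos_t (K := K) (F := F) (V := V)).add (sos_α (K := K))).smul e1)
    have b4 := ((sos_t (K := K) (F := F) (V := V)).smul hc.le)
    have b5 := ((SosF.sq (F := F) (G := V) ((fr_Z (K := K).mul (FR.const n2)).sub
      (fr_α (K := K).mul (FR.const n1)))).smul e2)
    have b6 := (((((a1.add a2).add (a3.smul (c := 2 * δ) (by positivity))).add b3).add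
      (b4.add b5)).smul (c := 1 / 2) (by norm_num))
    refine b6.congr' fun l x => ?_
    unfold nrmK
    ring

end Abstract

end Vale.Agent.P256.H824
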