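import Vale.Agent.P256.H387.LMR

/-! Linear algebra of section 3: the form `sup_q (2⟨q,v⟩ - ⟨q,Dq⟩)` and its null line. -/

set_option linter.all false

namespace Vale.Agent.P256.H824

open Matrix Vale.Agent.P256 Vale.Agent.P256.H326 Vale.Agent.P256.H387

variable {ι : Type*} [Fintype ι]

/-- `2⟨q,v⟩ - ⟨q,Dq⟩` -/
def qf (D : Matrix ι ι ℝ) (q v : ι → ℝ) : ℝ := 2 * (q ⬝ᵥ v) - q ⬝ᵥ (D *ᵥ q)

/-- `v` is orthogonal to the kernel of `D` -/
def Ran (D : Matrix ι ι ℝ) (v : ι → ℝ) : Prop := ∀ k, D *ᵥ k = 0 → k ⬝ᵥ v = 0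

theorem Ran.exists {D : Matrix ι ι ℝ} (hD : D.IsHermitian) {v : ι → ℝ} (h : Ran D v) :
    ∃ q, D *ᵥ q = v := by
  classical
  by_contra hc
  have hv : v ∉ LinearMap.range D.mulVecLin := by
    rintro ⟨q, hq⟩
    exact hc ⟨q, hq⟩
  obtain ⟨f, hf, hf'⟩ := Submodule.exists_dual_map_eq_bot_of_notMem hv inferInstance
  set k : ι → ℝ := fun i => f (Pi.single i 1) with hk
  have hdot : ∀ w : ι → ℝ, f w = k ⬝ᵥ w := by
    intro w
    rw [LinearMap.pi_apply_eq_sum_univ f w, dotProduct]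
    refine Finset.sum_congr rfl fun i _ => ?_
    rw [hk, smul_eq_mul, mul_comm]
    congr 2
    funext j
    by_cases hij : i = j
    · subst hij; simp
    · simp [hij, Pi.single_apply, Ne.symm hij]
  have h1 : ∀ q, k ⬝ᵥ (D *ᵥ q) = 0 := by
    intro q
    rw [← hdot]
    have : f (D *ᵥ q) ∈ (LinearMap.range D.mulVecLin).map f := ⟨D *ᵥ q, ⟨q, rfl⟩, rfl⟩
    rw [hf'] at this
    exact (Submodule.mem_bot ℝ).1 this
  have h2 : D *ᵥ k = 0 := by
    have h3 := h1 (D *ᵥ k)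
    rw [herm_swap hD] at h3
    exact dotProduct_self_eq_zero.1 h3
  apply hf
  rw [hdot]
  exact h k h2

theorem qf_le {D : Matrix ι ι ℝ} (hD : D.PosSemidef) {q0 v : ι → ℝ} (h : D *ᵥ q0 = v)
    (q : ι → ℝ) : qf D q v ≤ q0 ⬝ᵥ v := by
  have := psd_cs hD q q0
  rw [h] at this
  unfold qf
  linarith

theorem qf_self {D : Matrix ι ι ℝ} {q0 v : ι → ℝ} (h : D *ᵥ q0 = v) :
    qf D q0 v = q0 ⬝ᵥ v := by
  unfold qf
  rw [h]; ring

/-- adding a kernel vector -/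
theorem qf_add_ker {D : Matrix ι ι ℝ} (hD : D.IsHermitian) {k : ι → ℝ} (hk : D *ᵥ k = 0)
    (q v : ι → ℝ) (K : ℝ) : qf D (q + K • k) v = qf D q v + 2 * K * (k ⬝ᵥ v) := by
  have h1 : k ⬝ᵥ (D *ᵥ q) = 0 := by rw [herm_swap hD, hk]; simp
  unfold qf
  rw [Matrix.mulVec_add, Matrix.mulVec_smul, hk, smul_zero, add_zero]
  simp only [add_dotProduct, smul_dotProduct, smul_eq_mul, h1]
  ring

/-- off the range the supremum is infinite -/
theorem qf_big {D : Matrix ι ι ℝ} (hD : D.IsHermitian) {k v : ι → ℝ} (hk : D *ᵥ k = 0)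
    (hkv : k ⬝ᵥ v ≠ 0) (B : ℝ) : ∃ q, B < qf D q v := by
  refine ⟨0 + ((B + 1) / (2 * (k ⬝ᵥ v))) • k, ?_⟩
  rw [qf_add_ker hD hk]
  have h1 : qf D 0 v = 0 := by simp [qf]
  rw [h1]
  have h2 : 2 * ((B + 1) / (2 * (k ⬝ᵥ v))) * (k ⬝ᵥ v) = B + 1 := by
    field_simp
  rw [h2]; linarith

theorem ran_of_bdd {D : Matrix ι ι ℝ} (hD : D.IsHermitian) {v : ι → ℝ} {B : ℝ}
    (h : ∀ q, qf D q v ≤ B) : Ran D v := by
  intro k hk
  by_contra hkv
  obtain ⟨q, hq⟩ := qf_big hD hk hkv B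
  exact absurd (h q) (not_le.2 hq)

/-- a nonzero vector has a strictly positive value of the form -/
theorem eq_zero_of_qf {D : Matrix ι ι ℝ} (hD : D.PosSemidef) {v : ι → ℝ}
    (h : ∀ q, qf D q v ≤ 0) : v = 0 := by
  obtain ⟨q, hq⟩ := (ran_of_bdd hD.1 h).exists hD.1
  have h1 := h (v)
  by_contra hv
  have hvv : 0 < v ⬝ᵥ v := by
    have h2 : 0 ≤ v ⬝ᵥ v := by
      simp only [dotProduct]
      exact Finset.sum_nonneg fun i _ => mul_self_nonneg _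
    exact lt_of_le_of_ne h2 (fun h3 => hv (dotProduct_self_eq_zero.1 h3.symm))
  have hDv : 0 ≤ v ⬝ᵥ (D *ᵥ v) := psd_nonneg hD v
  set s : ℝ := (v ⬝ᵥ v) / (v ⬝ᵥ (D *ᵥ v) + 1) with hs
  have hs0 : 0 < s := by positivity
  have h2 := h (s • v)
  unfold qf at h2
  rw [Matrix.mulVec_smul] at h2
  simp only [smul_dotProduct, dotProduct_smul, smul_eq_mul] at h2
  have h3 : s * (v ⬝ᵥ (D *ᵥ v) + 1) = v ⬝ᵥ v := by
    rw [hs]; field_simp
  nlinarith [mul_pos hs0 hvv, mul_pos hs0 hs0]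

/-- **The null line**: the form is positive transversally to a null direction `(n₁, n₂)`,
with a constant independent of `δ`. -/
theorem star_pos {D : Matrix ι ι ℝ} (h0 : D.PosSemidef) {ξ0 u g : ι → ℝ} (hξ : D *ᵥ ξ0 = 0)
    (hξ1 : ξ0 ⬝ᵥ ξ0 ≠ 0) (hu : ξ0 ⬝ᵥ u = 0) (hg : ξ0 ⬝ᵥ g = 0) {γ n1 n2 : ℝ}
    (hn : n1 ≠ 0 ∨ n2 ≠ 0)
    (H0 : ∀ Z α : ℝ, Ran D (Z • u + α • g) → ∃ q, γ * α ^ 2 ≤ qf D q (Z • u + α • g))
    (Hn : ∀ q, qf D q (n1 • u + n2 • g) ≤ γ * n2 ^ 2)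
    (H1 : ∃ (m1 m2 : ℝ) (q : ι → ℝ), γ * m2 ^ 2 < qf D q (m1 • u + m2 • g)) :
    ∃ c > 0, ∀ δ > 0, ∀ t Z α : ℝ, (t ≠ 0 ∨ Z ≠ 0 ∨ α ≠ 0) → ∃ q : ι → ℝ,
      γ * α ^ 2 - δ * (t ^ 2 + Z ^ 2 + α ^ 2) + c * (t ^ 2 + (Z * n2 - α * n1) ^ 2) <
        qf D q (t • ξ0 + Z • u + α • g) := by
  have hN : 0 < n1 ^ 2 + n2 ^ 2 := by
    rcases hn with h | h
    · have := sq_pos_of_ne_zero h; positivity
    · have := sq_pos_of_ne_zero h; positivity
  set N : ℝ := n1 ^ 2 + n2 ^ 2 with hNdef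
  set vn : ι → ℝ := n1 • u + n2 • g with hvn
  set vm : ι → ℝ := (-n2) • u + n1 • g with hvm
  have hRn : Ran D vn := ran_of_bdd h0.1 Hn
  obtain ⟨qn, hqn⟩ := hRn.exists h0.1
  have hA : qn ⬝ᵥ vn = γ * n2 ^ 2 := by
    refine le_antisymm ?_ ?_
    · rw [← qf_self hqn]; exact Hn qn
    · obtain ⟨q, hq⟩ := H0 n1 n2 hRn
      exact hq.trans (qf_le h0 hqn q)
  -- coordinates
  have hdec : ∀ Z α : ℝ, Z • u + α • g =
      ((Z * n1 + α * n2) / N) • vn + ((-(Z * n2) + α * n1) / N) • vm := by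
    intro Z α
    funext i
    simp only [hvn, hvm, Pi.add_apply, Pi.smul_apply, smul_eq_mul]
    field_simp
    rw [hNdef]; ring
  have hα : ∀ Z α : ℝ, α = (Z * n1 + α * n2) / N * n2 + (-(Z * n2) + α * n1) / N * n1 := by
    intro Z α
    field_simp
    rw [hNdef]; ring
  -- the values at combinations of `qn`
  have hval : ∀ (s r : ℝ) (q : ι → ℝ), qf D (s • qn + r • q) (s • vn + r • vm) =
      s ^ 2 * (γ * n2 ^ 2) + 2 * s * r * (qn ⬝ᵥ vm) + r ^ 2 * qf D q vm := by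
    intro s r q
    have e1 : q ⬝ᵥ (D *ᵥ qn) = q ⬝ᵥ vn := by rw [hqn]
    have e2 : qn ⬝ᵥ (D *ᵥ q) = q ⬝ᵥ vn := by rw [herm_swap h0.1, hqn]
    have e3 : qn ⬝ᵥ (D *ᵥ qn) = γ * n2 ^ 2 := by rw [hqn, hA]
    unfold qf
    rw [Matrix.mulVec_add, Matrix.mulVec_smul, Matrix.mulVec_smul]
    simp only [add_dotProduct, dotProduct_add, smul_dotProduct, dotProduct_smul, smul_eq_mul,
      e1, e2, e3, hA]
    ring
  -- the case `t ≠ 0`
  have ht : ∀ t Z α B : ℝ, t ≠ 0 → ∃ q : ι → ℝ, B < qf D q (t • ξ0 + Z • u + α • g) := by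
    intro t Z α B ht
    refine qf_big h0.1 hξ ?_ B
    simp only [dotProduct_add, dotProduct_smul, smul_eq_mul, hu, hg, mul_zero, add_zero]
    exact mul_ne_zero ht hξ1
  have hred : ∀ c : ℝ, (∀ δ > 0, ∀ Z α : ℝ, (Z ≠ 0 ∨ α ≠ 0) → ∃ q : ι → ℝ,
      γ * α ^ 2 - δ * (Z ^ 2 + α ^ 2) + c * (Z * n2 - α * n1) ^ 2 <
        qf D q (Z • u + α • g)) → ∀ δ > 0, ∀ t Z α : ℝ, (t ≠ 0 ∨ Z ≠ 0 ∨ α ≠ 0) → ∃ q : ι → ℝ,
      γ * α ^ 2 - δ * (t ^ 2 + Z ^ 2 + α ^ 2) + c * (t ^ 2 + (Z * n2 - α * n1) ^ 2) <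
        qf D q (t • ξ0 + Z • u + α • g) := by
    intro c H δ hδ t Z α hw
    by_cases ht0 : t = 0
    · subst ht0
      have hw' : Z ≠ 0 ∨ α ≠ 0 := by
        rcases hw with h | h
        · exact absurd rfl h
        · exact h
      obtain ⟨q, hq⟩ := H δ hδ Z α hw'
      refine ⟨q, ?_⟩
      rw [zero_smul, zero_add]
      refine lt_of_eq_of_lt ?_ hq
      ring
    · exact ht t Z α _ ht0
  by_cases hm : Ran D vm
  · obtain ⟨qm, hqm⟩ := hm.exists h0.1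
    have hm2 : qf D qm vm = qm ⬝ᵥ vm := qf_self hqm
    set κ : ℝ := qn ⬝ᵥ vm - γ * n1 * n2 with hκ
    set μ : ℝ := qm ⬝ᵥ vm - γ * n1 ^ 2 with hμ
    -- the form
    have hform : ∀ s r : ℝ, qf D (s • qn + r • qm) (s • vn + r • vm) -
        γ * (s * n2 + r * n1) ^ 2 = 2 * s * r * κ + r ^ 2 * μ := by
      intro s r
      rw [hval, hm2, hκ, hμ]
      ring
    have hsup : ∀ (s r : ℝ) (q : ι → ℝ), qf D q (s • vn + r • vm) ≤
        qf D (s • qn + r • qm) (s • vn + r • vm) := by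
      intro s r q
      have h1 : D *ᵥ (s • qn + r • qm) = s • vn + r • vm := by
        rw [Matrix.mulVec_add, Matrix.mulVec_smul, Matrix.mulVec_smul, hqn, hqm]
      rw [qf_self h1]
      exact qf_le h0 h1 q
    have hge : ∀ s r : ℝ, 0 ≤ 2 * s * r * κ + r ^ 2 * μ := by
      intro s r
      have h1 : s • vn + r • vm = (s * n1 - r * n2) • u + (s * n2 + r * n1) • g := by
        funext i
        simp only [hvn, hvm, Pi.add_apply, Pi.smul_apply, smul_eq_mul]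
        ring
      have hR : Ran D (s • vn + r • vm) := by
        intro k hk
        simp only [dotProduct_add, dotProduct_smul, smul_eq_mul, hRn k hk, hm k hk, mul_zero,
          add_zero]
      obtain ⟨q, hq⟩ := H0 (s * n1 - r * n2) (s * n2 + r * n1) (by rw [← h1]; exact hR)
      rw [← h1] at hq
      have := hsup s r q
      have h2 := hform s r
      linarith
    have hμ0 : 0 ≤ μ := by simpa using hge 0 1
    have hκ0 : κ = 0 := by
      by_contra hk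
      have h1 := hge (-(μ + 1) / (2 * κ)) 1
      have h2 : 2 * (-(μ + 1) / (2 * κ)) * 1 * κ = -(μ + 1) := by field_simp
      rw [h2] at h1
      linarith
    have hμpos : 0 < μ := by
      refine lt_of_le_of_ne hμ0 fun hμ' => ?_
      obtain ⟨m1, m2, q, hq⟩ := H1
      rw [hdec m1 m2] at hq
      have h1 := hsup ((m1 * n1 + m2 * n2) / N) ((-(m1 * n2) + m2 * n1) / N) q
      have h2 := hform ((m1 * n1 + m2 * n2) / N) ((-(m1 * n2) + m2 * n1) / N)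
      rw [hκ0, ← hμ', ← hα m1 m2] at h2
      linarith
    refine ⟨μ / (2 * N ^ 2), by positivity, hred _ ?_⟩
    intro δ hδ Z α hw
    set s : ℝ := (Z * n1 + α * n2) / N with hs
    set r : ℝ := (-(Z * n2) + α * n1) / N with hr
    refine ⟨s • qn + r • qm, ?_⟩
    rw [hdec Z α]
    have h2 := hform s r
    rw [hκ0, ← hα Z α] at h2
    have h3 : (Z * n2 - α * n1) ^ 2 = r ^ 2 * N ^ 2 := by
      rw [hr]; field_simp; ring
    have h4 : μ / (2 * N ^ 2) * (Z * n2 - α * n1) ^ 2 = r ^ 2 * μ / 2 := by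
      rw [h3]; field_simp
    have h5 : 0 < Z ^ 2 + α ^ 2 := by
      rcases hw with h | h
      · have := sq_pos_of_ne_zero h; positivity
      · have := sq_pos_of_ne_zero h; positivity
    rw [h4]
    have h6 : 0 ≤ r ^ 2 * μ := by positivity
    nlinarith [mul_pos hδ h5]
  · have hm' : ∃ k, D *ᵥ k = 0 ∧ k ⬝ᵥ vm ≠ 0 := by
      unfold Ran at hm
      push Not at hm
      exact hm
    obtain ⟨k, hk, hkm⟩ := hm'
    refine ⟨1, one_pos, hred _ ?_⟩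
    intro δ hδ Z α hw
    set s : ℝ := (Z * n1 + α * n2) / N with hs
    set r : ℝ := (-(Z * n2) + α * n1) / N with hr
    rw [hdec Z α]
    by_cases hr0 : r = 0
    · refine ⟨s • qn, ?_⟩
      have h1 : s • vn + r • vm = s • vn + (0 : ℝ) • vm := by rw [hr0]
      have h2 := hval s 0 qn
      rw [zero_smul, add_zero] at h2
      rw [h1, h2]
      have h3 : α = s * n2 := by
        have := hα Z α
        rw [← hs, ← hr, hr0] at this
        simpa using this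
      have h4 : Z * n2 - α * n1 = 0 := by
        have h6 : (-(Z * n2) + α * n1) = 0 := by
          have h7 : r * N = -(Z * n2) + α * n1 := by rw [hr]; field_simp
          rw [← h7, hr0, zero_mul]
        linarith
      have h5 : 0 < Z ^ 2 + α ^ 2 := by
        rcases hw with h | h
        · have := sq_pos_of_ne_zero h; positivity
        · have := sq_pos_of_ne_zero h; positivity
      have h8 : γ * α ^ 2 = s ^ 2 * (γ * n2 ^ 2) := by rw [h3]; ring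
      rw [h4, h8]
      nlinarith [mul_pos hδ h5]
    · refine qf_big h0.1 hk ?_ _
      simp only [dotProduct_add, dotProduct_smul, smul_eq_mul, hRn k hk, mul_zero, zero_add]
      exact mul_ne_zero hr0 hkm

/-- no null direction -/
theorem all_pos {D : Matrix ι ι ℝ} (h0 : D.PosSemidef) {ξ0 u g : ι → ℝ} (hξ : D *ᵥ ξ0 = 0)
    (hξ1 : ξ0 ⬝ᵥ ξ0 ≠ 0) (hu : ξ0 ⬝ᵥ u = 0) (hg : ξ0 ⬝ᵥ g = 0) {γ : ℝ}
    (H : ∀ Z α : ℝ, (Z ≠ 0 ∨ α ≠ 0) → ∃ q, γ * α ^ 2 < qf D q (Z • u + α • g))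
    (t Z α : ℝ) (hw : t ≠ 0 ∨ Z ≠ 0 ∨ α ≠ 0) : ∃ q : ι → ℝ,
      γ * α ^ 2 < qf D q (t • ξ0 + Z • u + α • g) := by
  by_cases ht0 : t = 0
  · subst ht0
    have hw' : Z ≠ 0 ∨ α ≠ 0 := by
      rcases hw with h | h
      · exact absurd rfl h
      · exact h
    obtain ⟨q, hq⟩ := H Z α hw'
    refine ⟨q, ?_⟩
    rw [zero_smul, zero_add]
    exact hq
  · refine qf_big h0.1 hξ ?_ _
    simp only [dotProduct_add, dotProduct_smul, smul_eq_mul, hu, hg, mul_zero, add_zero]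
    exact mul_ne_zero ht0 hξ1

end Vale.Agent.P256.H824
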