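import Vale.Agent.P256.H387.LMR
import Vale.Agent.P256.H201.Dom

/-! The matrix criterion (LMR) with negligible errors and an additional constant form. -/

set_option linter.all false

namespace Vale.Agent.P256.H824

open Filter Topology Matrix Vale.Agent.P256 Vale.Agent.P256.H326 Vale.Agent.P256.H387
open Vale.Agent.P256.H201 (Dom Sml)

variable {L X : Type*} {F : Filter L} {G : Filter X}

/-- uniform gap in the criterion -/
theorem lmr_gap {ι κ : Type*} [Fintype ι] [Fintype κ] [DecidableEq ι]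
    {M0 : Matrix ι ι ℝ} (h0 : M0.PosSemidef) (α : κ → ι → ℝ) (e0 : κ → κ → ℝ)
    (hpos : ∀ w : κ → ℝ, w ≠ 0 → ∃ q : ι → ℝ, ∑ a, ∑ b, e0 a b * w a * w b <
        2 * ∑ i, q i * ∑ a, w a * α a i - ∑ i, ∑ j, M0 i j * q i * q j) :
    ∃ ε : ℝ, 0 < ε ∧ ∃ μ : ℝ, 0 < μ ∧ ∀ w : κ → ℝ,
      μ * ∑ a, w a ^ 2 + ∑ a, ∑ b, e0 a b * w a * w b ≤
      (fun i => ∑ a, w a * α a i) ⬝ᵥ
        ((M0 + ε • (1 : Matrix ι ι ℝ))⁻¹ *ᵥ (fun i => ∑ a, w a * α a i)) := by
  classical
  let B : ℝ → Matrix ι ι ℝ := fun ε => M0 + ε • (1 : Matrix ι ι ℝ)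
  let u : (κ → ℝ) → ι → ℝ := fun w i => ∑ a, w a * α a i
  let E : (κ → ℝ) → ℝ := fun w => ∑ a, ∑ b, e0 a b * w a * w b
  let Φ : ℝ → (κ → ℝ) → ℝ := fun ε w => u w ⬝ᵥ ((B ε)⁻¹ *ᵥ u w) - E w
  have hucont : Continuous u := by
    refine continuous_pi fun i => ?_
    show Continuous fun w : κ → ℝ => ∑ a, w a * α a i
    fun_prop
  have hEcont : Continuous E := by
    show Continuous fun w : κ → ℝ => ∑ a, ∑ b, e0 a b * w a * w b
    fun_prop
  have hΦcont : ∀ ε, Continuous (Φ ε) := by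
    intro ε
    have h1 : Continuous fun w => (B ε)⁻¹ *ᵥ u w := Continuous.matrix_mulVec continuous_const hucont
    exact (Continuous.dotProduct hucont h1).sub hEcont
  have hmono : ∀ ε ε' : ℝ, 0 < ε' → ε' ≤ ε → ∀ w, Φ ε w ≤ Φ ε' w := by
    intro ε ε' hε' hle w
    have hB := posDef_add h0 (hε'.trans_le hle)
    have hB' := posDef_add h0 hε'
    have hunit : IsUnit (B ε).det := (Matrix.isUnit_iff_isUnit_det _).1 hB.isUnit
    set q : ι → ℝ := (B ε)⁻¹ *ᵥ u w with hq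
    have hBq : B ε *ᵥ q = u w := by
      rw [hq, Matrix.mulVec_mulVec, Matrix.mul_nonsing_inv _ hunit, Matrix.one_mulVec]
    have h1 := inv_form_ge hB' (u w) q
    have h2 : q ⬝ᵥ (B ε' *ᵥ q) ≤ q ⬝ᵥ (B ε *ᵥ q) := by
      have e1 : ∀ t : ℝ, q ⬝ᵥ (B t *ᵥ q) = q ⬝ᵥ (M0 *ᵥ q) + t * (q ⬝ᵥ q) := by
        intro t
        show q ⬝ᵥ ((M0 + t • (1 : Matrix ι ι ℝ)) *ᵥ q) = _
        rw [Matrix.add_mulVec, dotProduct_add, Matrix.smul_mulVec, Matrix.one_mulVec,
          dotProduct_smul, smul_eq_mul]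
      rw [e1, e1]
      have : 0 ≤ q ⬝ᵥ q := by
        simp only [dotProduct]
        exact Finset.sum_nonneg fun i _ => mul_self_nonneg _
      nlinarith
    have h3 : u w ⬝ᵥ ((B ε)⁻¹ *ᵥ u w) = q ⬝ᵥ u w := by rw [← hq]; exact dotProduct_comm _ _
    rw [hBq] at h2
    show u w ⬝ᵥ ((B ε)⁻¹ *ᵥ u w) - E w ≤ u w ⬝ᵥ ((B ε')⁻¹ *ᵥ u w) - E w
    rw [h3]
    linarith
  let Kset : Set (κ → ℝ) := {w | ∑ i, w i ^ 2 = 1}
  have hKc : IsCompact Kset := by
    have hclosed : IsClosed Kset := isClosed_eq (by fun_prop) continuous_const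
    have hbdd : Kset ⊆ Metric.closedBall 0 1 := by
      intro w hw
      rw [mem_closedBall_zero_iff, pi_norm_le_iff_of_nonneg zero_le_one]
      intro i
      rw [Real.norm_eq_abs, abs_le_one_iff_mul_self_le_one]
      have h1 : w i ^ 2 ≤ ∑ j, w j ^ 2 :=
        Finset.single_le_sum (f := fun j => w j ^ 2) (fun j _ => sq_nonneg _) (Finset.mem_univ i)
      have h2 : ∑ j, w j ^ 2 = 1 := hw
      nlinarith
    exact (isCompact_closedBall (0 : κ → ℝ) 1).of_isClosed_subset hclosed hbdd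
  have hcov : ∃ n : ℕ, ∀ w ∈ Kset, 0 < Φ (1 / ((n : ℝ) + 1)) w := by
    have hsub : Kset ⊆ ⋃ n : ℕ, {w | 0 < Φ (1 / ((n : ℝ) + 1)) w} := by
      intro w hw
      have hw0 : w ≠ 0 := by
        rintro rfl
        have : ∑ i : κ, (0 : κ → ℝ) i ^ 2 = 1 := hw
        simp at this
      obtain ⟨q, hq⟩ := hpos w hw0
      have e1 : ∑ i, q i * ∑ a, w a * α a i = q ⬝ᵥ u w := rfl
      rw [← dot_mulVec_eq, e1] at hq
      have ht : Tendsto (fun n : ℕ => 1 / ((n : ℝ) + 1) * (q ⬝ᵥ q)) atTop (𝓝 0) := by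
        have := tendsto_one_div_add_atTop_nhds_zero_nat (𝕜 := ℝ)
        simpa using this.mul_const (q ⬝ᵥ q)
      have hpos' : 0 < 2 * (q ⬝ᵥ u w) - q ⬝ᵥ (M0 *ᵥ q) - E w := by
        have : E w = ∑ a, ∑ b, e0 a b * w a * w b := rfl
        linarith
      obtain ⟨n, hn⟩ := (ht.eventually_lt_const hpos').exists
      refine Set.mem_iUnion.2 ⟨n, ?_⟩
      have hn0 : (0 : ℝ) < 1 / ((n : ℝ) + 1) := by positivity
      have h1 := inv_form_ge (posDef_add h0 hn0) (u w) q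
      rw [Matrix.add_mulVec, dotProduct_add, Matrix.smul_mulVec, Matrix.one_mulVec,
        dotProduct_smul, smul_eq_mul] at h1
      show 0 < u w ⬝ᵥ ((B _)⁻¹ *ᵥ u w) - E w
      have h1' : 2 * (q ⬝ᵥ u w) - (q ⬝ᵥ (M0 *ᵥ q) + 1 / ((n : ℝ) + 1) * (q ⬝ᵥ q)) ≤
        u w ⬝ᵥ ((B (1 / ((n : ℝ) + 1)))⁻¹ *ᵥ u w) := h1
      linarith
    have hdir : Directed (· ⊆ ·) (fun n : ℕ => {w : κ → ℝ | 0 < Φ (1 / ((n : ℝ) + 1)) w}) := by
      refine directed_of_isDirected_le ?_
      intro n m hnm w hw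
      have h1 : (0 : ℝ) < 1 / ((m : ℝ) + 1) := by positivity
      have h2 : 1 / ((m : ℝ) + 1) ≤ 1 / ((n : ℝ) + 1) := by
        refine one_div_le_one_div_of_le (by positivity) ?_
        have : (n : ℝ) ≤ m := by exact_mod_cast hnm
        linarith
      exact lt_of_lt_of_le hw (hmono _ _ h1 h2 w)
    obtain ⟨n, hn⟩ := hKc.elim_directed_cover _
      (fun n => isOpen_lt continuous_const (hΦcont _)) hsub hdir
    exact ⟨n, fun w hw => hn hw⟩
  obtain ⟨n, hn⟩ := hcov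
  set ε : ℝ := 1 / ((n : ℝ) + 1) with hε
  have hεpos : 0 < ε := by positivity
  obtain ⟨μ, hμ, hμK⟩ : ∃ μ : ℝ, 0 < μ ∧ ∀ w ∈ Kset, μ ≤ Φ ε w := by
    rcases Kset.eq_empty_or_nonempty with he | hne
    · exact ⟨1, one_pos, fun w hw => by rw [he] at hw; exact absurd hw (Set.notMem_empty w)⟩
    · obtain ⟨w0, hw0, hmin⟩ := hKc.exists_isMinOn hne (hΦcont ε).continuousOn
      exact ⟨Φ ε w0, hn w0 hw0, fun w hw => hmin hw⟩
  refine ⟨ε, hεpos, μ, hμ, fun w => ?_⟩
  have hgoal : μ * ∑ a, w a ^ 2 ≤ Φ ε w := by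
    by_cases hw : w = 0
    · subst hw
      have e1 : u 0 = 0 := by funext i; simp [u]
      have e2 : E 0 = 0 := by simp [E]
      show _ ≤ u 0 ⬝ᵥ ((B ε)⁻¹ *ᵥ u 0) - E 0
      rw [e1, e2]
      simp
    · have hsq : 0 < ∑ i, w i ^ 2 := by
        obtain ⟨i, hi⟩ := Function.ne_iff.1 hw
        have h1 : w i ^ 2 ≤ ∑ j, w j ^ 2 :=
          Finset.single_le_sum (f := fun j => w j ^ 2) (fun j _ => sq_nonneg _)
            (Finset.mem_univ i)
        have h2 : 0 < w i ^ 2 := by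
          have : w i ≠ 0 := by simpa using hi
          positivity
        linarith
      set t : ℝ := (Real.sqrt (∑ i, w i ^ 2))⁻¹ with ht
      have htpos : 0 < t := inv_pos.2 (Real.sqrt_pos.2 hsq)
      have ht2 : t ^ 2 * ∑ i, w i ^ 2 = 1 := by
        rw [ht, inv_pow, Real.sq_sqrt hsq.le, inv_mul_cancel₀ hsq.ne']
      have hmem : (t • w) ∈ Kset := by
        have : ∀ i, (t • w) i ^ 2 = t ^ 2 * w i ^ 2 := by
          intro i; rw [Pi.smul_apply, smul_eq_mul, mul_pow]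
        show ∑ i, (t • w) i ^ 2 = 1
        rw [Finset.sum_congr rfl (fun i _ => this i), ← Finset.mul_sum, ht2]
      have h1 := hμK _ hmem
      have hu : u (t • w) = t • u w := by
        funext i
        show ∑ a, (t • w) a * α a i = t * ∑ a, w a * α a i
        rw [Finset.mul_sum]
        refine Finset.sum_congr rfl fun a _ => ?_
        rw [Pi.smul_apply, smul_eq_mul]; ring
      have hE : E (t • w) = t ^ 2 * E w := by
        show ∑ a, ∑ b, e0 a b * (t • w) a * (t • w) b = t ^ 2 * ∑ a, ∑ b, e0 a b * w a * w b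
        simp only [Pi.smul_apply, smul_eq_mul, Finset.mul_sum]
        refine Finset.sum_congr rfl fun a _ => Finset.sum_congr rfl fun b _ => ?_
        ring
      have h2 : Φ ε (t • w) = t ^ 2 * Φ ε w := by
        show u (t • w) ⬝ᵥ ((B ε)⁻¹ *ᵥ u (t • w)) - E (t • w) =
          t ^ 2 * (u w ⬝ᵥ ((B ε)⁻¹ *ᵥ u w) - E w)
        rw [hu, hE, Matrix.mulVec_smul]
        simp only [smul_dotProduct, dotProduct_smul, smul_eq_mul]
        ring
      rw [h2] at h1
      have h3 : t ^ 2 * (μ * ∑ i, w i ^ 2) ≤ t ^ 2 * Φ ε w := by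
        have : t ^ 2 * (μ * ∑ i, w i ^ 2) = μ * (t ^ 2 * ∑ i, w i ^ 2) := by ring
        rw [this, ht2, mul_one]; exact h1
      exact le_of_mul_le_mul_left h3 (by positivity)
  have : Φ ε w = (fun i => ∑ a, w a * α a i) ⬝ᵥ
      ((M0 + ε • (1 : Matrix ι ι ℝ))⁻¹ *ᵥ (fun i => ∑ a, w a * α a i)) -
      ∑ a, ∑ b, e0 a b * w a * w b := rfl
  rw [this] at hgoal
  linarith

/-- a constant positive semidefinite form in finite rank kernels -/
theorem sosF_form {ι : Type*} [Fintype ι] {Q : Matrix ι ι ℝ} (hQ : Q.PosSemidef)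
    {v : ι → L → X → ℝ} (hv : ∀ i, FR (v i)) :
    SosF F G (fun l x => ∑ i, ∑ j, Q i j * v i l x * v j l x) := by
  classical
  obtain ⟨B, hB⟩ := psd_factor hQ
  have h1 : SosF F G (fun l x => ∑ k, (∑ i, B k i * v i l x) ^ 2) := by
    refine SosF.sum _ fun k _ => SosF.sq ?_
    exact FR.sum _ fun i _ => (FR.const (B k i)).mul (hv i)
  refine h1.congr' fun l x => ?_
  have e1 : ∀ i j, Q i j = ∑ k, B k i * B k j := by
    intro i j
    rw [hB, Matrix.mul_apply]
    rfl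
  have e2 : ∀ k, (∑ i, B k i * v i l x) ^ 2 =
      ∑ i, ∑ j, (B k i * B k j) * v i l x * v j l x := by
    intro k
    rw [sq, Finset.sum_mul_sum]
    refine Finset.sum_congr rfl fun i _ => Finset.sum_congr rfl fun j _ => ?_
    ring
  symm
  rw [Finset.sum_congr rfl (fun k _ => e2 k), Finset.sum_comm]
  refine Finset.sum_congr rfl fun i _ => ?_
  rw [Finset.sum_comm]
  refine Finset.sum_congr rfl fun j _ => ?_
  rw [e1, Finset.sum_mul, Finset.sum_mul]

/-- a constant symmetric form is bounded by a multiple of the identity -/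
theorem form_le {ι : Type*} [Fintype ι] [DecidableEq ι] {Q : Matrix ι ι ℝ} (hQ : Q.IsHermitian) :
    ∃ C : ℝ, 0 < C ∧ (C • (1 : Matrix ι ι ℝ) - Q).PosSemidef := by
  obtain ⟨C, hC, h⟩ : ∃ C : ℝ, 0 < C ∧ ∀ i j, |Q i j| ≤ C := by
    refine ⟨1 + ∑ i, ∑ j, |Q i j|, ?_, fun i j => ?_⟩
    · have : 0 ≤ ∑ i, ∑ j, |Q i j| :=
        Finset.sum_nonneg fun _ _ => Finset.sum_nonneg fun _ _ => abs_nonneg _
      linarith
    · have h1 : |Q i j| ≤ ∑ j, |Q i j| :=
        Finset.single_le_sum (f := fun j => |Q i j|) (fun _ _ => abs_nonneg _) (Finset.mem_univ j)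
      have h2 : ∑ j, |Q i j| ≤ ∑ i, ∑ j, |Q i j| :=
        Finset.single_le_sum (f := fun i => ∑ j, |Q i j|)
          (fun _ _ => Finset.sum_nonneg fun _ _ => abs_nonneg _) (Finset.mem_univ i)
      linarith
  refine ⟨C * (Fintype.card ι + 1), by positivity, ?_⟩
  refine Matrix.PosSemidef.of_dotProduct_mulVec_nonneg ?_ (fun v => ?_)
  · refine Matrix.IsHermitian.sub ?_ hQ
    refine Matrix.IsHermitian.ext fun i j => ?_
    by_cases hij : i = j
    · subst hij; simp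
    · simp [Matrix.one_apply, hij, Ne.symm hij]
  · rw [star_trivial, Matrix.sub_mulVec, dotProduct_sub, Matrix.smul_mulVec, Matrix.one_mulVec,
      dotProduct_smul, smul_eq_mul, dot_mulVec_eq]
    have h1 : ∑ i, ∑ j, Q i j * v i * v j ≤ ∑ i, ∑ j, C * ((v i ^ 2 + v j ^ 2) / 2) := by
      refine Finset.sum_le_sum fun i _ => Finset.sum_le_sum fun j _ => ?_
      have h3 : |v i * v j| ≤ (v i ^ 2 + v j ^ 2) / 2 := by
        rw [abs_le]; constructor <;> nlinarith [sq_nonneg (v i + v j), sq_nonneg (v i - v j)]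
      calc Q i j * v i * v j = Q i j * (v i * v j) := by ring
        _ ≤ |Q i j * (v i * v j)| := le_abs_self _
        _ = |Q i j| * |v i * v j| := abs_mul _ _
        _ ≤ C * ((v i ^ 2 + v j ^ 2) / 2) := mul_le_mul (h i j) h3 (abs_nonneg _) hC.le
    have h2 : ∑ i, ∑ j, C * ((v i ^ 2 + v j ^ 2) / 2) = C * (Fintype.card ι : ℝ) * ∑ i, v i ^ 2 := by
      have : ∀ i, ∑ j, C * ((v i ^ 2 + v j ^ 2) / 2) =
          C / 2 * (Fintype.card ι : ℝ) * v i ^ 2 + C / 2 * ∑ j, v j ^ 2 := by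
        intro i
        rw [← Finset.mul_sum, ← Finset.sum_div, Finset.sum_add_distrib, Finset.sum_const,
          Finset.card_univ, nsmul_eq_mul]
        ring
      rw [Finset.sum_congr rfl (fun i _ => this i), Finset.sum_add_distrib, ← Finset.mul_sum,
        Finset.sum_const, Finset.card_univ, nsmul_eq_mul]
      ring
    have h3 : v ⬝ᵥ v = ∑ i, v i ^ 2 := by
      simp only [dotProduct]
      exact Finset.sum_congr rfl fun i _ => by ring
    have h4 : 0 ≤ ∑ i, v i ^ 2 := Finset.sum_nonneg fun i _ => sq_nonneg _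
    rw [h3]
    nlinarith

theorem split_aux {ι : Type*} [Fintype ι] {η : ℝ} (hη : η ≠ 0) (Q : ι → ι → ℝ) (V r : ι → ℝ) :
    1 / η * ∑ i, ∑ j, Q i j * (η * V i + r i) * (η * V j + r j) =
      ∑ i, ∑ j, Q i j * (V i + r i) * (V j + r j) -
      (1 - η) * ∑ i, ∑ j, Q i j * V i * V j + (1 / η - 1) * ∑ i, ∑ j, Q i j * r i * r j := by
  have haux : ∀ q V W r s : ℝ, 1 / η * (q * (η * V + r) * (η * W + s)) =
      q * (V + r) * (W + s) - (1 - η) * (q * V * W) + (1 / η - 1) * (q * r * s) := by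
    intro q V W r s
    have h1 : 1 / η * (q * (η * V + r) * (η * W + s)) =
        q * ((1 / η * η) * η * V * W + (1 / η * η) * V * s + (1 / η * η) * r * W +
          1 / η * r * s) := by ring
    have h2 : 1 / η * η = 1 := one_div_mul_cancel hη
    rw [h1, h2]
    ring
  rw [Finset.mul_sum, Finset.mul_sum, Finset.mul_sum, ← Finset.sum_sub_distrib,
    ← Finset.sum_add_distrib]
  refine Finset.sum_congr rfl fun i _ => ?_
  rw [Finset.mul_sum, Finset.mul_sum, Finset.mul_sum, ← Finset.sum_sub_distrib,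
    ← Finset.sum_add_distrib]
  refine Finset.sum_congr rfl fun j _ => ?_
  exact haux _ _ _ _ _

/-- **The matrix criterion with errors and an additional form.** -/
theorem sosF_lmr_err {ι κ : Type*} [Fintype ι] [Fintype κ] [DecidableEq ι] [DecidableEq κ]
    {M : X → Matrix ι ι ℝ} {M0 : Matrix ι ι ℝ}
    (hM : ∀ᶠ x in G, (M x).PosSemidef) (h0 : M0.PosSemidef)
    (hM0 : ∀ i j, Tendsto (fun x => M x i j) G (𝓝 (M0 i j)))
    (ξ : L → ι → ℝ) {d : κ → L → X → ℝ} (hd : ∀ a, FR (d a))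
    {A : κ → ι → L → X → ℝ} {α : κ → ι → ℝ} (hA : ∀ a i, GermFR F G (A a i) (α a i))
    {r : ι → L → X → ℝ} (hr : ∀ i, Sml F G (r i) (fun l x => ∑ a, d a l x ^ 2))
    (hU : ∀ i, EqF F G (fun l x => (M x *ᵥ ξ l) i)
      (fun l x => ∑ a, d a l x * A a i l x + r i l x))
    {e : κ → κ → L → X → ℝ} {e0 : κ → κ → ℝ} (he : ∀ a b, GermFR F G (e a b) (e0 a b))
    {r' : L → X → ℝ} (hr' : ∀ η : ℝ, 0 < η → SosF F G (fun l x => η * ∑ a, d a l x ^ 2 - r' l x))
    (κ0 : κ → κ → ℝ)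
    (hpos : ∀ w : κ → ℝ, w ≠ 0 → ∃ q : ι → ℝ, ∑ a, ∑ b, (e0 a b - κ0 a b) * w a * w b <
        2 * ∑ i, q i * ∑ a, w a * α a i - ∑ i, ∑ j, M0 i j * q i * q j)
    {S : L → X → ℝ}
    (hS : EqF F G S (fun l x => ∑ i, ∑ j, M x i j * ξ l i * ξ l j -
      ∑ a, ∑ b, e a b l x * d a l x * d b l x - r' l x)) :
    SosF F G (fun l x => S l x + ∑ a, ∑ b, κ0 a b * d a l x * d b l x) := by
  classical
  obtain ⟨ε, hε, μ, hμ, hgap⟩ := lmr_gap h0 α (fun a b => e0 a b - κ0 a b) hpos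
  have hBd := posDef_add h0 hε
  set Q : Matrix ι ι ℝ := (M0 + ε • (1 : Matrix ι ι ℝ))⁻¹ with hQ
  have hQpd : Q.PosDef := hBd.inv
  obtain ⟨CQ, hCQ, hCQ'⟩ := form_le hQpd.1
  -- the form in `α`
  have hαform : ∀ w : κ → ℝ, (fun i => ∑ a, w a * α a i) ⬝ᵥ (Q *ᵥ (fun i => ∑ a, w a * α a i)) =
      ∑ a, ∑ b, (∑ i, ∑ j, Q i j * α a i * α b j) * w a * w b := by
    intro w
    rw [dot_mulVec_eq]
    exact quad_expand (fun i j => Q i j) w α
  -- bound of the form in `α`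
  set Aα : Matrix κ κ ℝ := Matrix.of fun a b => ∑ i, ∑ j, Q i j * α a i * α b j with hAα
  have hAh : Aα.IsHermitian := by
    refine Matrix.IsHermitian.ext fun a b => ?_
    simp only [hAα, Matrix.of_apply, star_trivial]
    rw [Finset.sum_comm]
    refine Finset.sum_congr rfl fun i _ => Finset.sum_congr rfl fun j _ => ?_
    have : Q j i = Q i j := by
      have := congrFun (congrFun hQpd.1 i) j
      simpa using this
    rw [this]; ring
  obtain ⟨Cα, hCα, hCα'⟩ := form_le hAh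
  set η : ℝ := μ / (4 * Cα + μ) with hη
  have hηpos : 0 < η := by positivity
  have hη1 : η < 1 := by
    rw [hη, div_lt_one (by positivity)]
    linarith
  have hηC : η * Cα ≤ μ / 4 := by
    rw [hη, div_mul_eq_mul_div, div_le_div_iff₀ (by positivity) (by norm_num)]
    nlinarith [mul_pos hμ hμ]
  -- 1. matrix part
  have hsos1 := sosF_sub_inv (F := F) hM h0 hM0 hε ξ
  rw [← hQ] at hsos1
  -- 2. splitting
  have hVfr : ∀ i, FR (fun l x => ∑ a, d a l x * A a i l x) := fun i =>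
    FR.sum _ fun a _ => (hd a).mul (Vale.Agent.P256.H201.germ_fr (hA a i))
  have hsos2 : SosF F G (fun l x => 1 / η * ∑ i, ∑ j, Q i j *
      (η * (∑ a, d a l x * A a i l x) + r i l x) *
      (η * (∑ a, d a l x * A a j l x) + r j l x)) :=
    SosF.smul (by positivity) (sosF_form hQpd.posSemidef fun i =>
      ((hVfr i).smul η).add (hr i).fr)
  -- 3. the main form
  have hsos3 := sosF_of_syzygy (F := F) (G := G) (κ := PEmpty.{1}) (f := d) hd
    (M := fun a b l x => (1 - η) * ∑ i, ∑ j, Q i j * A a i l x * A b j l x - e a b l x +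
      κ0 a b - if a = b then μ / 2 else 0)
    (C := fun a b => (1 - η) * ∑ i, ∑ j, Q i j * α a i * α b j - e0 a b + κ0 a b -
      if a = b then μ / 2 else 0)
    (fun a b => ((((GermFR.sum _ fun i _ => GermFR.sum _ fun j _ =>
      ((hA a i).smul (Q i j)).mul (hA b j)).smul (1 - η)).sub (he a b)).add
        (GermFR.const (κ0 a b))).sub (GermFR.const _))
    (R := fun k => PEmpty.elim k) (ρ := fun k => PEmpty.elim k) (fun k => PEmpty.elim k)
    (fun k => PEmpty.elim k) (by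
      intro w hw _
      have h1 := hgap w
      rw [hαform w] at h1
      have hsq : 0 < ∑ i, w i ^ 2 := by
        obtain ⟨i, hi⟩ := Function.ne_iff.1 hw
        have h1 : w i ^ 2 ≤ ∑ j, w j ^ 2 :=
          Finset.single_le_sum (f := fun j => w j ^ 2) (fun j _ => sq_nonneg _)
            (Finset.mem_univ i)
        have h2 : 0 < w i ^ 2 := by
          have : w i ≠ 0 := by simpa using hi
          positivity
        linarith
      have h2 : ∑ a, ∑ b, (∑ i, ∑ j, Q i j * α a i * α b j) * w a * w b ≤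
          Cα * ∑ a, w a ^ 2 := by
        have h3 := psd_nonneg hCα' w
        rw [Matrix.sub_mulVec, dotProduct_sub, Matrix.smul_mulVec, Matrix.one_mulVec,
          dotProduct_smul, smul_eq_mul, dot_mulVec_eq] at h3
        have h4 : w ⬝ᵥ w = ∑ i, w i ^ 2 := by
          simp only [dotProduct]
          exact Finset.sum_congr rfl fun i _ => by ring
        rw [h4] at h3
        have h5 : ∑ i, ∑ j, Aα i j * w i * w j =
          ∑ a, ∑ b, (∑ i, ∑ j, Q i j * α a i * α b j) * w a * w b := rfl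
        linarith
      have h3 : ∑ a, ∑ b, ((1 - η) * ∑ i, ∑ j, Q i j * α a i * α b j - e0 a b + κ0 a b -
          if a = b then μ / 2 else 0) * w a * w b =
          (1 - η) * ∑ a, ∑ b, (∑ i, ∑ j, Q i j * α a i * α b j) * w a * w b -
          ∑ a, ∑ b, (e0 a b - κ0 a b) * w a * w b - μ / 2 * ∑ a, w a ^ 2 := by
        have h4 : ∑ a, ∑ b, (if a = b then μ / 2 else 0) * w a * w b =
            μ / 2 * ∑ a, w a ^ 2 := by
          rw [Finset.mul_sum]
          refine Finset.sum_congr rfl fun a _ => ?_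
          rw [Finset.sum_eq_single a]
          · simp; ring
          · intro b _ hb; simp [Ne.symm hb]
          · simp
        rw [← h4, Finset.mul_sum, ← Finset.sum_sub_distrib, ← Finset.sum_sub_distrib]
        refine Finset.sum_congr rfl fun a _ => ?_
        rw [Finset.mul_sum, ← Finset.sum_sub_distrib, ← Finset.sum_sub_distrib]
        refine Finset.sum_congr rfl fun b _ => ?_
        ring
      rw [h3]
      have h5 : η * ∑ a, ∑ b, (∑ i, ∑ j, Q i j * α a i * α b j) * w a * w b ≤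
          μ / 4 * ∑ a, w a ^ 2 := by
        calc _ ≤ η * (Cα * ∑ a, w a ^ 2) := mul_le_mul_of_nonneg_left h2 hηpos.le
          _ = (η * Cα) * ∑ a, w a ^ 2 := by ring
          _ ≤ _ := mul_le_mul_of_nonneg_right hηC hsq.le
      have h6 : 0 < μ * ∑ a, w a ^ 2 := mul_pos hμ hsq
      nlinarith)
  -- 4. errors
  have hK : 0 < 1 / η * CQ * (Fintype.card ι + 1) := by positivity
  set K : ℝ := 1 / η * CQ * (Fintype.card ι + 1) with hKdef
  have hrr : SosF F G (fun l x => ∑ i, (μ / (4 * K) * ∑ a, d a l x ^ 2 - r i l x ^ 2)) :=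
    SosF.sum _ fun i _ => (hr i).le _ (by positivity)
  have hrQ : SosF F G (fun l x => ∑ i, ∑ j, (CQ • (1 : Matrix ι ι ℝ) - Q) i j * r i l x * r j l x) :=
    sosF_form hCQ' fun i => (hr i).fr
  have hr'1 := hr' (μ / 4) (by positivity)
  have hd2 : SosF F G (fun l x => ∑ a, d a l x ^ 2) := SosF.sum _ fun a _ => SosF.sq (hd a)
  have hrQ0 : SosF F G (fun l x => ∑ i, ∑ j, Q i j * r i l x * r j l x) :=
    sosF_form hQpd.posSemidef fun i => (hr i).fr
  -- assembly
  have hU' : ∃ A1 ∈ F, ∃ B1 ∈ G, ∀ l ∈ A1, ∀ x ∈ B1, ∀ i,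
      (M x *ᵥ ξ l) i = ∑ a, d a l x * A a i l x + r i l x := by
    choose A1 hA1 B1 hB1 eq1 using hU
    refine ⟨⋂ i, A1 i, iInter_mem.2 hA1, ⋂ i, B1 i, iInter_mem.2 hB1, fun l hl x hx i => ?_⟩
    exact eq1 i l (Set.mem_iInter.1 hl i) x (Set.mem_iInter.1 hx i)
  have hcard : (Fintype.card ι : ℝ) * (μ / (4 * K)) * (1 / η * CQ) ≤ μ / 4 := by
    have h1 : (Fintype.card ι : ℝ) * (μ / (4 * K)) * (1 / η * CQ) =
        μ / 4 * ((1 / η * CQ) * (Fintype.card ι : ℝ) / K) := by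
      field_simp
    rw [h1]
    have h2 : (1 / η * CQ) * (Fintype.card ι : ℝ) / K ≤ 1 := by
      rw [div_le_one hK, hKdef]
      have : 0 < 1 / η * CQ := by positivity
      nlinarith
    have h3 : 0 < μ / 4 := by positivity
    nlinarith
  have htotal := ((((hsos1.add hsos2).add hsos3).add
    ((hrr.add ((hrQ).smul (c := 1 / CQ) (by positivity))).smul (c := 1 / η * CQ)
      (by positivity))).add hr'1).add (hrQ0.add
    (hd2.smul (c := μ / 4 - (Fintype.card ι : ℝ) * (μ / (4 * K)) * (1 / η * CQ))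
      (by linarith)))
  refine htotal.congr ?_
  obtain ⟨A1, hA1, B1, hB1, eq1⟩ := hU'
  obtain ⟨A2, hA2, B2, hB2, eq2⟩ := hS
  refine ⟨A1 ∩ A2, inter_mem hA1 hA2, B1 ∩ B2, inter_mem hB1 hB2, fun l hl x hx => ?_⟩
  show S l x + ∑ a, ∑ b, κ0 a b * d a l x * d b l x = _
  rw [eq2 l hl.2 x hx.2]
  have hUQ : ∑ i, ∑ j, Q i j * (M x *ᵥ ξ l) i * (M x *ᵥ ξ l) j =
      ∑ i, ∑ j, Q i j * (∑ a, d a l x * A a i l x + r i l x) *
        (∑ a, d a l x * A a j l x + r j l x) := by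
    refine Finset.sum_congr rfl fun i _ => Finset.sum_congr rfl fun j _ => ?_
    rw [eq1 l hl.1 x hx.1 i, eq1 l hl.1 x hx.1 j]
  have hVQ : ∑ i, ∑ j, Q i j * (∑ a, d a l x * A a i l x) * (∑ a, d a l x * A a j l x) =
      ∑ a, ∑ b, (∑ i, ∑ j, Q i j * A a i l x * A b j l x) * d a l x * d b l x :=
    quad_expand (fun i j => Q i j) (fun a => d a l x) (fun a i => A a i l x)
  have hsplit : 1 / η * ∑ i, ∑ j, Q i j *
      (η * (∑ a, d a l x * A a i l x) + r i l x) *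
      (η * (∑ a, d a l x * A a j l x) + r j l x) =
      ∑ i, ∑ j, Q i j * (∑ a, d a l x * A a i l x + r i l x) *
        (∑ a, d a l x * A a j l x + r j l x) -
      (1 - η) * ∑ i, ∑ j, Q i j * (∑ a, d a l x * A a i l x) * (∑ a, d a l x * A a j l x) +
      (1 / η - 1) * ∑ i, ∑ j, Q i j * r i l x * r j l x := by
    exact split_aux hηpos.ne' (fun i j => Q i j) (fun i => ∑ a, d a l x * A a i l x)
      (fun i => r i l x)
  have h3form : ∑ a, ∑ b, ((1 - η) * ∑ i, ∑ j, Q i j * A a i l x * A b j l x - e a b l x +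
      κ0 a b - if a = b then μ / 2 else 0) * d a l x * d b l x =
      (1 - η) * ∑ a, ∑ b, (∑ i, ∑ j, Q i j * A a i l x * A b j l x) * d a l x * d b l x -
      ∑ a, ∑ b, e a b l x * d a l x * d b l x + ∑ a, ∑ b, κ0 a b * d a l x * d b l x -
      μ / 2 * ∑ a, d a l x ^ 2 := by
    have h4 : ∑ a, ∑ b, (if a = b then μ / 2 else 0) * d a l x * d b l x =
        μ / 2 * ∑ a, d a l x ^ 2 := by
      rw [Finset.mul_sum]
      refine Finset.sum_congr rfl fun a _ => ?_
      rw [Finset.sum_eq_single a]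
      · simp; ring
      · intro b _ hb; simp [Ne.symm hb]
      · simp
    rw [← h4, Finset.mul_sum, ← Finset.sum_sub_distrib, ← Finset.sum_add_distrib,
      ← Finset.sum_sub_distrib]
    refine Finset.sum_congr rfl fun a _ => ?_
    rw [Finset.mul_sum, ← Finset.sum_sub_distrib, ← Finset.sum_add_distrib,
      ← Finset.sum_sub_distrib]
    refine Finset.sum_congr rfl fun b _ => ?_
    ring
  have hrr' : ∑ i : ι, (μ / (4 * K) * ∑ a, d a l x ^ 2 - r i l x ^ 2) =
      (Fintype.card ι : ℝ) * (μ / (4 * K)) * ∑ a, d a l x ^ 2 - ∑ i, r i l x ^ 2 := by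
    rw [Finset.sum_sub_distrib, Finset.sum_const, Finset.card_univ, nsmul_eq_mul]
    ring
  have hrQ' : ∑ i, ∑ j, (CQ • (1 : Matrix ι ι ℝ) - Q) i j * r i l x * r j l x =
      CQ * ∑ i, r i l x ^ 2 - ∑ i, ∑ j, Q i j * r i l x * r j l x := by
    have h4 : ∑ i, ∑ j, (CQ • (1 : Matrix ι ι ℝ)) i j * r i l x * r j l x =
        CQ * ∑ i, r i l x ^ 2 := by
      rw [Finset.mul_sum]
      refine Finset.sum_congr rfl fun a _ => ?_
      rw [Finset.sum_eq_single a]
      · simp; ring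
      · intro b _ hb; simp [Matrix.one_apply, Ne.symm hb]
      · simp
    rw [← h4, ← Finset.sum_sub_distrib]
    refine Finset.sum_congr rfl fun a _ => ?_
    rw [← Finset.sum_sub_distrib]
    refine Finset.sum_congr rfl fun b _ => ?_
    rw [Matrix.sub_apply]; ring
  beta_reduce
  rw [hUQ, hsplit, h3form, hrr', hrQ', hVQ]
  have hc1 : 1 / η * CQ * (1 / CQ) = 1 / η := by field_simp
  have hexp : 1 / η * CQ * ((Fintype.card ι : ℝ) * (μ / (4 * K)) * ∑ a, d a l x ^ 2 -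
      ∑ i, r i l x ^ 2 + 1 / CQ * (CQ * ∑ i, r i l x ^ 2 -
      ∑ i, ∑ j, Q i j * r i l x * r j l x)) =
      (Fintype.card ι : ℝ) * (μ / (4 * K)) * (1 / η * CQ) * ∑ a, d a l x ^ 2 -
      1 / η * ∑ i, ∑ j, Q i j * r i l x * r j l x := by
    have : 1 / CQ * (CQ * ∑ i, r i l x ^ 2 - ∑ i, ∑ j, Q i j * r i l x * r j l x) =
        ∑ i, r i l x ^ 2 - 1 / CQ * ∑ i, ∑ j, Q i j * r i l x * r j l x := by
      field_simp
    rw [this]
    have h7 : 1 / η * CQ * (1 / CQ * ∑ i, ∑ j, Q i j * r i l x * r j l x) =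
        1 / η * ∑ i, ∑ j, Q i j * r i l x * r j l x := by
      rw [← mul_assoc, hc1]
    have h8 : 1 / η * CQ * ((Fintype.card ι : ℝ) * (μ / (4 * K)) * ∑ a, d a l x ^ 2 -
      ∑ i, r i l x ^ 2 + (∑ i, r i l x ^ 2 - 1 / CQ * ∑ i, ∑ j, Q i j * r i l x * r j l x)) =
      (Fintype.card ι : ℝ) * (μ / (4 * K)) * (1 / η * CQ) * ∑ a, d a l x ^ 2 -
      1 / η * CQ * (1 / CQ * ∑ i, ∑ j, Q i j * r i l x * r j l x) := by ring
    rw [h8, h7]
  rw [hexp]
  ring

end Vale.Agent.P256.H824
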