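import Vale.Agent.P256.H387.Iface
import Vale.Agent.P256.H824.LmrE
import Vale.Agent.P256.H824.Lin

/-! The criterion (LMR) for a kernel representation `KRep`. -/

set_option linter.all false

namespace Vale.Agent.P256.H824

open Filter Topology Matrix Vale.Agent.P256 Vale.Agent.P256.H326
open Vale.Agent.P256.H387 hiding Dom Sml
open Vale.Agent.P256.H201 (Dom Sml germ_fr)

variable {L X : Type} {F : Filter L} {V : Filter X} {S : L → X → ℝ} {K : Crd L X}
  {ι : Type} [Fintype ι] [DecidableEq ι]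

/-- `⟨ξ, (M(l) + DM(l)[x - l]) ξ⟩` -/
def St (R : KRep ι F V S K) (l : L) (x : X) : ℝ :=
  R.ξ l ⬝ᵥ ((K.y0 x • (1 : Matrix ι ι ℝ) + K.b' x • R.B + (Gs R.D R.G1 R.H (K.a l) +
      (K.a' x - K.a l) • DGs R.G1 R.H R.DH (K.a l))) *ᵥ R.ξ l)

/-- the number `⟨ξ₀, H(0) ξ₀⟩` -/
def gam (R : KRep ι F V S K) : ℝ := R.ξ0 ⬝ᵥ (R.H 0 *ᵥ R.ξ0)

/-- difference kernels of the entries of `H` -/
def dH (R : KRep ι F V S K) (i j : ι) (l : L) (x : X) : ℝ := R.H (K.a' x) i j - R.H (K.a l) i j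

theorem fr_t : FR (fun l x => K.t l x) := (FR.right K.y0).sub (FR.left K.x0)
theorem fr_Z : FR (fun l x => K.Z l x) := (FR.right K.b').sub (FR.left K.b)
theorem fr_α : FR (fun l x => K.α l x) := (FR.right K.a').sub (FR.left K.a)

theorem sos_t : SosF F V (fun l x => K.t l x ^ 2) := SosF.sq fr_t
theorem sos_Z : SosF F V (fun l x => K.Z l x ^ 2) := SosF.sq fr_Z
theorem sos_α : SosF F V (fun l x => K.α l x ^ 2) := SosF.sq fr_α

theorem tH (R : KRep ι F V S K) (i j : ι) :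
    Tendsto (fun l => R.H (K.a l) i j) F (𝓝 (R.H 0 i j)) := (R.nk i j).cont.tendsto.comp R.ta

theorem tH' (R : KRep ι F V S K) (i j : ι) :
    Tendsto (fun x => R.H (K.a' x) i j) V (𝓝 (R.H 0 i j)) := (R.nk i j).cont.tendsto.comp R.ta'

theorem dH_dom (R : KRep ι F V S K) (i j : ι) :
    Dom F V (dH R i j) (fun l x => K.α l x ^ 2) := by
  obtain ⟨C, hC, h1, -, -⟩ := (R.nk i j).ker R.ta R.ta'
  refine ⟨(FR.right fun x => R.H (K.a' x) i j).sub (FR.left fun l => R.H (K.a l) i j), C + 1,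
    by positivity, (SosF.add h1 (sos_α (K := K))).congr' fun l x => ?_⟩
  show (C + 1) * (K.a' x - K.a l) ^ 2 - (R.H (K.a' x) i j - R.H (K.a l) i j) ^ 2 =
    C * (K.a' x - K.a l) ^ 2 - (R.H (K.a' x) i j - R.H (K.a l) i j) ^ 2 + (K.a' x - K.a l) ^ 2
  ring

/-- the difference of the pencil at the two points -/
theorem mat_diff (B D G1 : Matrix ι ι ℝ) (H : ℝ → Matrix ι ι ℝ) (x0 b a y0 b' a' : ℝ) :
    Mf B D G1 H y0 b' a' = Mf B D G1 H x0 b a + ((y0 - x0) • (1 : Matrix ι ι ℝ) +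
      (b' - b) • B + (a' - a) • (G1 + (a + a') • H a) + a' ^ 2 • (H a' - H a)) := by
  ext i j
  simp only [Mf, Gs, Matrix.add_apply, Matrix.smul_apply, Matrix.sub_apply, smul_eq_mul]
  ring

/-- the tangent pencil -/
theorem mat_tan (B D G1 : Matrix ι ι ℝ) (H DH : ℝ → Matrix ι ι ℝ) (a y0 b' a' : ℝ) :
    y0 • (1 : Matrix ι ι ℝ) + b' • B + (Gs D G1 H a + (a' - a) • DGs G1 H DH a) =
      Mf B D G1 H y0 b' a' - ((a' - a) ^ 2 • H a + ((a' - a) * (a + a')) • (H a' - H a) +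
        a ^ 2 • (H a' - H a - (a' - a) • DH a)) := by
  ext i j
  simp only [Mf, Gs, DGs, Matrix.add_apply, Matrix.smul_apply, Matrix.sub_apply, smul_eq_mul]
  ring

theorem row_eq (R : KRep ι F V S K) : ∀ᶠ l in F, ∀ x i,
    (Mf R.B R.D R.G1 R.H (K.y0 x) (K.b' x) (K.a' x) *ᵥ R.ξ l) i =
      K.t l x * R.ξ l i + K.Z l x * (R.B *ᵥ R.ξ l) i +
      K.α l x * ((R.G1 *ᵥ R.ξ l) i + (K.a l + K.a' x) * (R.H (K.a l) *ᵥ R.ξ l) i) +
      ∑ j, K.a' x ^ 2 * R.ξ l j * dH R i j l x := by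
  filter_upwards [R.ker] with l hl x i
  rw [mat_diff R.B R.D R.G1 R.H (K.x0 l) (K.b l) (K.a l), Matrix.add_mulVec, hl, zero_add,
    Matrix.add_mulVec, Matrix.add_mulVec, Matrix.add_mulVec, Matrix.smul_mulVec,
    Matrix.smul_mulVec, Matrix.smul_mulVec, Matrix.smul_mulVec, Matrix.add_mulVec,
    Matrix.smul_mulVec, Matrix.one_mulVec]
  simp only [Pi.add_apply, Pi.smul_apply, smul_eq_mul]
  have h1 : K.a' x ^ 2 * ((R.H (K.a' x) - R.H (K.a l)) *ᵥ R.ξ l) i =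
      ∑ j, K.a' x ^ 2 * R.ξ l j * dH R i j l x := by
    rw [Matrix.mulVec, dotProduct, Finset.mul_sum]
    refine Finset.sum_congr rfl fun j _ => ?_
    rw [Matrix.sub_apply]
    show _ = K.a' x ^ 2 * R.ξ l j * (R.H (K.a' x) i j - R.H (K.a l) i j)
    ring
  rw [h1]
  rfl

theorem dot_sum (A : Matrix ι ι ℝ) (v : ι → ℝ) : v ⬝ᵥ (A *ᵥ v) = ∑ i, ∑ j, A i j * v i * v j := by
  rw [dotProduct]
  refine Finset.sum_congr rfl fun i _ => ?_
  rw [Matrix.mulVec, dotProduct, Finset.mul_sum]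
  refine Finset.sum_congr rfl fun j _ => ?_
  ring

/-- the error kernel -/
def err (R : KRep ι F V S K) (l : L) (x : X) : ℝ :=
  ∑ i, ∑ j, (((K.a l + K.a' x) * (R.ξ l i * R.ξ l j) * K.α l x) * dH R i j l x +
    K.a l ^ 2 * (R.ξ l i * R.ξ l j) * (dH R i j l x - K.α l x * R.DH (K.a l) i j))

theorem St_eq (R : KRep ι F V S K) (l : L) (x : X) :
    St R l x = ∑ i, ∑ j, Mf R.B R.D R.G1 R.H (K.y0 x) (K.b' x) (K.a' x) i j * R.ξ l i * R.ξ l j -
      K.α l x ^ 2 * (R.ξ l ⬝ᵥ (R.H (K.a l) *ᵥ R.ξ l)) - err R l x := by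
  rw [St, mat_tan, Matrix.sub_mulVec, dotProduct_sub, Matrix.add_mulVec, Matrix.add_mulVec,
    dotProduct_add, dotProduct_add, ← dot_sum]
  have h1 : R.ξ l ⬝ᵥ (((K.a' x - K.a l) ^ 2 • R.H (K.a l)) *ᵥ R.ξ l) =
      K.α l x ^ 2 * (R.ξ l ⬝ᵥ (R.H (K.a l) *ᵥ R.ξ l)) := by
    rw [Matrix.smul_mulVec, dotProduct_smul, smul_eq_mul]
    rfl
  have h2 : R.ξ l ⬝ᵥ ((((K.a' x - K.a l) * (K.a l + K.a' x)) •
      (R.H (K.a' x) - R.H (K.a l))) *ᵥ R.ξ l) + R.ξ l ⬝ᵥ ((K.a l ^ 2 •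
      (R.H (K.a' x) - R.H (K.a l) - (K.a' x - K.a l) • R.DH (K.a l))) *ᵥ R.ξ l) = err R l x := by
    rw [dot_sum, dot_sum, err, ← Finset.sum_add_distrib]
    refine Finset.sum_congr rfl fun i _ => ?_
    rw [← Finset.sum_add_distrib]
    refine Finset.sum_congr rfl fun j _ => ?_
    simp only [Matrix.smul_apply, Matrix.sub_apply, smul_eq_mul, dH, Crd.α]
    ring
  rw [h1, ← h2]
  ring

/-- the rows of the error of the vector `M(x) ξ(l)` are negligible -/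
theorem rrow_sml (R : KRep ι F V S K) {Q : L → X → ℝ}
    (hQ : SosF F V (fun l x => Q l x - K.α l x ^ 2)) (i : ι) :
    Sml F V (fun l x => ∑ j, K.a' x ^ 2 * R.ξ l j * dH R i j l x) Q := by
  have h : ∀ j, Sml F V (fun l x => K.a' x ^ 2 * R.ξ l j * dH R i j l x) Q := by
    intro j
    have hg : GermFR F V (fun l x => K.a' x ^ 2 * R.ξ l j) 0 := by
      refine (((GermFR.right R.ta').mul (GermFR.right R.ta')).mul (GermFR.left (R.tξ j))).congr
        (fun l x => ?_) ?_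
      · ring
      · ring
    exact (((dH_dom R i j).mono hQ).germ_small hg).congr' fun l x => rfl
  have hQ0 : SosF F V Q := (hQ.add (sos_α (K := K))).congr' fun l x => by ring
  exact Sml.sum Finset.univ hQ0 (fun j _ => h j)

/-- products of a one-sided infinitesimal and a kernel bounded by `α²` on both sides -/
theorem inf_mul {w : L → ℝ} (hw : Tendsto w F (𝓝 0)) {h Q : L → X → ℝ} {C : ℝ} (hC : 0 ≤ C)
    (hQ : SosF F V Q) (h1 : SosF F V (fun l x => C * Q l x - h l x))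
    (h2 : SosF F V (fun l x => C * Q l x + h l x)) {η : ℝ} (hη : 0 < η) :
    SosF F V (fun l x => η * Q l x - w l * h l x) := by
  have hp : SosF F V (fun l (_ : X) => max (w l) 0) :=
    SosF.left (Eventually.of_forall fun l => le_max_right _ _)
  have hn : SosF F V (fun l (_ : X) => max (-w l) 0) :=
    SosF.left (Eventually.of_forall fun l => le_max_right _ _)
  have hr : SosF F V (fun l (_ : X) => η - C * |w l|) := by
    refine SosF.left ?_
    have h3 : Tendsto (fun l => η - C * |w l|) F (𝓝 (η - C * |0|)) :=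
      tendsto_const_nhds.sub (tendsto_const_nhds.mul hw.abs)
    have h4 : (0 : ℝ) < η - C * |0| := by simpa using hη
    exact (h3.eventually (lt_mem_nhds h4)).mono fun l hl => hl.le
  refine (((hp.mul h1).add (hn.mul h2)).add (hr.mul hQ)).congr' fun l x => ?_
  beta_reduce
  rcases le_total 0 (w l) with h5 | h5
  · rw [max_eq_left h5, max_eq_right (by linarith : -w l ≤ 0), abs_of_nonneg h5]
    ring
  · rw [max_eq_right h5, max_eq_left (by linarith : 0 ≤ -w l), abs_of_nonpos h5]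
    ring

theorem err_le (R : KRep ι F V S K) {η : ℝ} (hη : 0 < η) :
    SosF F V (fun l x => η * K.α l x ^ 2 - err R l x) := by
  classical
  have hN : (0 : ℝ) < (Fintype.card ι : ℝ) ^ 2 + 1 := by positivity
  set η' : ℝ := η / (2 * ((Fintype.card ι : ℝ) ^ 2 + 1)) with hη'
  have hη'0 : 0 < η' := by positivity
  have h1 : ∀ i j, SosF F V (fun l x => η' * K.α l x ^ 2 -
      ((K.a l + K.a' x) * (R.ξ l i * R.ξ l j) * K.α l x) * dH R i j l x) := by
    intro i j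
    have hg : GermFR F V (fun l x => (K.a l + K.a' x) * (R.ξ l i * R.ξ l j)) 0 := by
      refine (((GermFR.left R.ta).add (GermFR.right R.ta')).mul
        ((GermFR.left (R.tξ i)).mul (GermFR.left (R.tξ j)))).congr (fun l x => rfl) (by ring)
    have h2 : Sml F V (fun l x => (K.a l + K.a' x) * (R.ξ l i * R.ξ l j) * K.α l x)
        (fun l x => K.α l x ^ 2) := (Dom.self fr_α).germ_small hg
    exact ((h2.mul_le (dH_dom R i j) η' hη'0).1)
  have h2 : ∀ i j, SosF F V (fun l x => η' * K.α l x ^ 2 -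
      K.a l ^ 2 * (R.ξ l i * R.ξ l j) * (dH R i j l x - K.α l x * R.DH (K.a l) i j)) := by
    intro i j
    obtain ⟨C, hC, -, h3, h4⟩ := (R.nk i j).ker R.ta R.ta'
    have hw : Tendsto (fun l => K.a l ^ 2 * (R.ξ l i * R.ξ l j)) F (𝓝 0) := by
      have h5 := (R.ta.pow 2).mul ((R.tξ i).mul (R.tξ j))
      simpa using h5
    refine inf_mul hw hC sos_α (h3.congr' fun l x => rfl) (h4.congr' fun l x => ?_) hη'0
    show C * (K.a' x - K.a l) ^ 2 + _ = C * (K.a' x - K.a l) ^ 2 - _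
    simp only [dH, Crd.α]
    ring
  have h3 : SosF F V (fun l x => ∑ i, ∑ j, ((η' * K.α l x ^ 2 -
      ((K.a l + K.a' x) * (R.ξ l i * R.ξ l j) * K.α l x) * dH R i j l x) +
      (η' * K.α l x ^ 2 -
      K.a l ^ 2 * (R.ξ l i * R.ξ l j) * (dH R i j l x - K.α l x * R.DH (K.a l) i j)))) :=
    SosF.sum _ fun i _ => SosF.sum _ fun j _ => (h1 i j).add (h2 i j)
  have h4 : SosF F V (fun l x => (2 * η') * K.α l x ^ 2) := sos_α.smul (by positivity)
  refine (h3.add h4).congr' fun l x => ?_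
  have h5 : ∑ i : ι, ∑ j : ι, ((η' * K.α l x ^ 2 -
      ((K.a l + K.a' x) * (R.ξ l i * R.ξ l j) * K.α l x) * dH R i j l x) +
      (η' * K.α l x ^ 2 -
      K.a l ^ 2 * (R.ξ l i * R.ξ l j) * (dH R i j l x - K.α l x * R.DH (K.a l) i j))) =
      (Fintype.card ι : ℝ) ^ 2 * (2 * η' * K.α l x ^ 2) - err R l x := by
    have h6 : ∑ i : ι, ∑ j : ι, (2 * η' * K.α l x ^ 2) =
        (Fintype.card ι : ℝ) ^ 2 * (2 * η' * K.α l x ^ 2) := by
      simp only [Finset.sum_const, Finset.card_univ, nsmul_eq_mul]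
      ring
    rw [← h6, err, ← Finset.sum_sub_distrib]
    refine Finset.sum_congr rfl fun i _ => ?_
    rw [← Finset.sum_sub_distrib]
    refine Finset.sum_congr rfl fun j _ => ?_
    ring
  rw [h5]
  have h7 : η = ((Fintype.card ι : ℝ) ^ 2 + 1) * (2 * η') := by
    rw [hη']; field_simp
  calc η * K.α l x ^ 2 - err R l x = (((Fintype.card ι : ℝ) ^ 2 + 1) * (2 * η')) * K.α l x ^ 2 -
        err R l x := by rw [← h7]
    _ = _ := by ring

/-- the three generators `t`, `ε Z`, `α` -/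
def gen (K : Crd L X) (ε : L → ℝ) : Fin 3 → L → X → ℝ :=
  ![fun l x => K.t l x, fun l x => ε l * K.Z l x, fun l x => K.α l x]

theorem tMX (R : KRep ι F V S K) (i j : ι) :
    Tendsto (fun x => Mf R.B R.D R.G1 R.H (K.y0 x) (K.b' x) (K.a' x) i j) V (𝓝 (R.D i j)) := by
  have h1 : Tendsto (fun x => K.y0 x * (1 : Matrix ι ι ℝ) i j + K.b' x * R.B i j +
      (R.D i j + K.a' x * R.G1 i j + K.a' x ^ 2 * R.H (K.a' x) i j)) V
      (𝓝 (0 * (1 : Matrix ι ι ℝ) i j + 0 * R.B i j +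
        (R.D i j + 0 * R.G1 i j + 0 ^ 2 * R.H 0 i j))) :=
    ((R.ty0.mul_const _).add (R.tb'.mul_const _)).add
      ((tendsto_const_nhds.add (R.ta'.mul_const _)).add ((R.ta'.pow 2).mul (tH' R i j)))
  have h2 : (0 * (1 : Matrix ι ι ℝ) i j + 0 * R.B i j +
        (R.D i j + 0 * R.G1 i j + 0 ^ 2 * R.H 0 i j)) = R.D i j := by ring
  rw [h2] at h1
  exact h1

theorem tmv (R : KRep ι F V S K) (A : Matrix ι ι ℝ) (i : ι) :
    Tendsto (fun l => (A *ᵥ R.ξ l) i) F (𝓝 ((A *ᵥ R.ξ0) i)) := by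
  simp only [Matrix.mulVec, dotProduct]
  exact tendsto_finsetSum _ fun j _ => tendsto_const_nhds.mul (R.tξ j)

theorem tHmv (R : KRep ι F V S K) (i : ι) :
    Tendsto (fun l => (R.H (K.a l) *ᵥ R.ξ l) i) F (𝓝 ((R.H 0 *ᵥ R.ξ0) i)) := by
  simp only [Matrix.mulVec, dotProduct]
  exact tendsto_finsetSum _ fun j _ => (tH R i j).mul (R.tξ j)

theorem tgam (R : KRep ι F V S K) :
    Tendsto (fun l => R.ξ l ⬝ᵥ (R.H (K.a l) *ᵥ R.ξ l)) F (𝓝 (gam R)) := by
  unfold gam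
  simp only [dotProduct]
  exact tendsto_finsetSum _ fun j _ => (R.tξ j).mul (tHmv R j)

/-- **(LMR) for a kernel representation**, with the generators `t`, `ε Z`, `α` where
`B ξ = ε β`. -/
theorem krep_lmr (R : KRep ι F V S K) {ε : L → ℝ} {β : L → ι → ℝ} {β0 : ι → ℝ}
    (hβ : ∀ᶠ l in F, R.B *ᵥ R.ξ l = ε l • β l)
    (tβ : ∀ i, Tendsto (fun l => β l i) F (𝓝 (β0 i))) (κ : Fin 3 → Fin 3 → ℝ)
    (hpos : ∀ w : Fin 3 → ℝ, w ≠ 0 → ∃ q : ι → ℝ,
      gam R * w 2 ^ 2 - ∑ a, ∑ b, κ a b * w a * w b <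
        qf R.D q (w 0 • R.ξ0 + w 1 • β0 + w 2 • (R.G1 *ᵥ R.ξ0))) :
    SosF F V (fun l x => St R l x +
      ∑ a, ∑ b, κ a b * gen K ε a l x * gen K ε b l x) := by
  classical
  set d := gen K ε with hd
  have hdfr : ∀ a, FR (d a) := by
    intro a
    fin_cases a
    · exact fr_t
    · exact (FR.left ε).mul fr_Z
    · exact fr_α
  set Q : L → X → ℝ := fun l x => ∑ a, d a l x ^ 2 with hQ
  have hQe : ∀ l x, Q l x = K.t l x ^ 2 + (ε l * K.Z l x) ^ 2 + K.α l x ^ 2 := by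
    intro l x
    show ∑ a, d a l x ^ 2 = _
    rw [Fin.sum_univ_three]
    rfl
  have hQα : SosF F V (fun l x => Q l x - K.α l x ^ 2) := by
    refine ((sos_t (K := K)).add (SosF.sq ((FR.left ε).mul (fr_Z (K := K))))).congr'
      fun l x => ?_
    rw [hQe]; ring
  let A : Fin 3 → ι → L → X → ℝ := ![fun i l x => R.ξ l i, fun i l x => β l i,
    fun i l x => (R.G1 *ᵥ R.ξ l) i + (K.a l + K.a' x) * (R.H (K.a l) *ᵥ R.ξ l) i]
  let A0 : Fin 3 → ι → ℝ := ![R.ξ0, β0, R.G1 *ᵥ R.ξ0]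
  have hA : ∀ a i, GermFR F V (A a i) (A0 a i) := by
    intro a i
    fin_cases a
    · exact GermFR.left (R.tξ i)
    · exact GermFR.left (tβ i)
    · refine ((GermFR.left (tmv R R.G1 i)).add (((GermFR.left R.ta).add
        (GermFR.right R.ta')).mul (GermFR.left (tHmv R i)))).congr (fun l x => rfl) ?_
      show (R.G1 *ᵥ R.ξ0) i = _
      ring
  let e : Fin 3 → Fin 3 → L → X → ℝ := fun a b =>
    if a = 2 ∧ b = 2 then fun l x => R.ξ l ⬝ᵥ (R.H (K.a l) *ᵥ R.ξ l) else fun _ _ => 0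
  let e0 : Fin 3 → Fin 3 → ℝ := fun a b => if a = 2 ∧ b = 2 then gam R else 0
  have he : ∀ a b, GermFR F V (e a b) (e0 a b) := by
    intro a b
    by_cases h : a = 2 ∧ b = 2
    · simp only [e, e0, if_pos h]
      exact GermFR.left (tgam R)
    · simp only [e, e0, if_neg h]
      exact GermFR.const 0
  have hU : ∀ i, EqF F V
      (fun l x => (Mf R.B R.D R.G1 R.H (K.y0 x) (K.b' x) (K.a' x) *ᵥ R.ξ l) i)
      (fun l x => ∑ a, d a l x * A a i l x + ∑ j, K.a' x ^ 2 * R.ξ l j * dH R i j l x) := by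
    intro i
    refine EqF.of_eventually _ (fun _ => True) (hβ.and (row_eq R)) (by simp)
      fun l x hl _ => ?_
    rw [hl.2 x i, hl.1, Fin.sum_univ_three]
    show _ = K.t l x * R.ξ l i + (ε l * K.Z l x) * β l i + K.α l x * ((R.G1 *ᵥ R.ξ l) i +
      (K.a l + K.a' x) * (R.H (K.a l) *ᵥ R.ξ l) i) + _
    rw [Pi.smul_apply, smul_eq_mul]
    ring
  refine sosF_lmr_err (M := fun x => Mf R.B R.D R.G1 R.H (K.y0 x) (K.b' x) (K.a' x)) (M0 := R.D)
    R.psdX R.psdD (tMX R) R.ξ hdfr (A := A) (α := A0) hA (fun i => rrow_sml R hQα i) hU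
    (e := e) (e0 := e0) he (r' := err R) (fun η hη => ?_) κ (fun w hw => ?_) ?_
  · exact ((err_le R hη).add (hQα.smul hη.le)).congr' fun l x => by ring
  · obtain ⟨q, hq⟩ := hpos w hw
    refine ⟨q, ?_⟩
    have h1 : ∑ a, ∑ b, (e0 a b - κ a b) * w a * w b =
        gam R * w 2 ^ 2 - ∑ a, ∑ b, κ a b * w a * w b := by
      have h2 : ∑ a : Fin 3, ∑ b : Fin 3, e0 a b * w a * w b = gam R * w 2 ^ 2 := by
        simp only [e0, Fin.sum_univ_three]
        simp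
        ring
      rw [← h2, ← Finset.sum_sub_distrib]
      refine Finset.sum_congr rfl fun a _ => ?_
      rw [← Finset.sum_sub_distrib]
      refine Finset.sum_congr rfl fun b _ => ?_
      ring
    rw [h1]
    refine hq.trans_le (le_of_eq ?_)
    unfold qf
    rw [dot_sum]
    have h3 : q ⬝ᵥ (w 0 • R.ξ0 + w 1 • β0 + w 2 • (R.G1 *ᵥ R.ξ0)) =
        ∑ i, q i * ∑ a, w a * A0 a i := by
      rw [dotProduct]
      refine Finset.sum_congr rfl fun i _ => ?_
      rw [Fin.sum_univ_three]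
      rfl
    rw [h3]
  · refine EqF.of_eventually (fun _ => True) (fun _ => True) (by simp) (by simp)
      fun l x _ _ => ?_
    rw [St_eq]
    have h2 : ∑ a : Fin 3, ∑ b : Fin 3, e a b l x * d a l x * d b l x =
        K.α l x ^ 2 * (R.ξ l ⬝ᵥ (R.H (K.a l) *ᵥ R.ξ l)) := by
      simp only [e, Fin.sum_univ_three]
      have h3 : d 2 l x = K.α l x := rfl
      simp [h3]
      ring
    rw [h2]

end Vale.Agent.P256.H824
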