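import Vale.Agent.P256.H824.Line
import Vale.Agent.P256.H387.Rep
import Vale.Agent.P256.H387.Top4
import Vale.Agent.P256.H858.Block
import Vale.Agent.P256.H186.Five

/-! The flat line: final form in the geometric context. -/

set_option linter.all false

namespace Vale.Agent.P256.H824

open MvPolynomial Filter Topology Matrix Vale.Agent.P256 Vale.Agent.P256.H326
open Vale.Agent.P256.H387 hiding Dom Sml

variable {e z : Fin 4 → ℝ} {ζ : (Fin 4 → ℝ) →ₗ[ℝ] ℝ} {p : MvPolynomial (Fin 4) ℝ}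
  {U V : Ultrafilter (Fin 4 → ℝ)}

theorem rep_all (C : Ctx p e z U V ζ) (f w : Fin 4 → ℝ) (h : Fr e z ζ f w) :
    ∃ (ι : Type) (_ : Fintype ι) (_ : DecidableEq ι)
      (R : KRep ι (U : Filter (Fin 4 → ℝ)) (V : Filter (Fin 4 → ℝ)) (sl p e) (crd e z f w)),
      IsPen p e f w z R.B R.D R.G1 R.H R.DH := by
  obtain ⟨d, B, D, G1, H, DH, hP, -⟩ := H858.exists_pen_f C.hyp C.irr h
  obtain ⟨R, rfl, rfl, rfl, rfl, rfl⟩ := exists_krep C h hP
  exact ⟨_, _, _, R, hP⟩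

/-- **the flat line** -/
theorem flat (C : Ctx p e z U V ζ) :
    SosF (U : Filter (Fin 4 → ℝ)) (V : Filter (Fin 4 → ℝ)) (sl p e) ∨
    ∃ f w : Fin 4 → ℝ, ∀ k c : ℝ, k ≠ 0 →
      Fr e z ζ (k • f + c • z) w ∧
      (∀ᶠ y in (U : Filter (Fin 4 → ℝ)), 0 < (crd e z (k • f + c • z) w).a y) ∧
      Tendsto (fun y => (crd e z (k • f + c • z) w).x0 y / (crd e z (k • f + c • z) w).a y)
        (U : Filter (Fin 4 → ℝ)) (𝓝 0) ∧
      Star (U : Filter (Fin 4 → ℝ)) (V : Filter (Fin 4 → ℝ)) (sl p e)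
        (crd e z (k • f + c • z) w) ∧
      ∀ (ι : Type) (_ : Fintype ι) (_ : DecidableEq ι)
        (R : KRep ι (U : Filter (Fin 4 → ℝ)) (V : Filter (Fin 4 → ℝ)) (sl p e)
          (crd e z (k • f + c • z) w)),
        IsPen p e (k • f + c • z) w z R.B R.D R.G1 R.H R.DH →
          R.B *ᵥ R.ξ0 = 0 ∧ R.G1 *ᵥ R.ξ0 ≠ 0 := by
  rcases flat_line C C.ζe C.ζz (fun x hx => C.ζ_nonneg hx) C.exists_frame (rep_all C) with
    h | ⟨f, w, hfw, h⟩
  · exact Or.inl h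
  · right
    refine ⟨f, w, fun k c hk => ?_⟩
    obtain ⟨h1, h2, h3, h4⟩ := h k c 1 hk one_pos
    rw [one_smul] at h1 h2 h3 h4
    refine ⟨h1, h3, ?_, h2, h4⟩
    obtain ⟨ι, i1, i2, R, hP⟩ := rep_all C _ _ h1
    exact H186.x0_div_a R (h4 ι i1 i2 R hP).1 (Dxi0 R) h3

end Vale.Agent.P256.H824
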