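import Vale.Agent.P256.H824.Krep

/-! Section 3: the inequality (STAR) from the null line of a kernel representation. -/

set_option linter.all false

namespace Vale.Agent.P256.H824

open Filter Topology Matrix Vale.Agent.P256 Vale.Agent.P256.H326
open Vale.Agent.P256.H387 hiding Dom Sml
open Vale.Agent.P256.H201 (Dom Sml germ_fr)

variable {L X : Type} {F : Filter L} {V : Filter X} {S : L → X → ℝ} {K : Crd L X}
  {ι : Type} [Fintype ι] [DecidableEq ι]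

/-- `t² + Z² + α²` -/
def nrmK (K : Crd L X) (l : L) (x : X) : ℝ := K.t l x ^ 2 + K.Z l x ^ 2 + K.α l x ^ 2

theorem sos_nrmK : SosF F V (nrmK K) := (sos_t.add sos_Z).add sos_α

/-- the factor `c' / |ξ|²` -/
noncomputable def mfac (R : KRep ι F V S K) (l : L) (x : X) : ℝ := (R.ξ l ⬝ᵥ R.ξ l)⁻¹ * K.c' x

theorem txx (R : KRep ι F V S K) : Tendsto (fun l => R.ξ l ⬝ᵥ R.ξ l) F (𝓝 1) := by
  rw [← R.nrm0]
  simp only [dotProduct]
  exact tendsto_finsetSum _ fun j _ => (R.tξ j).mul (R.tξ j)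

theorem mfac_germ (R : KRep ι F V S K) : GermFR F V (mfac R) 1 := by
  have h1 : Tendsto (fun l => (R.ξ l ⬝ᵥ R.ξ l)⁻¹) F (𝓝 (1 : ℝ)⁻¹) :=
    (txx R).inv₀ one_ne_zero
  exact ((GermFR.left h1).mul (GermFR.right R.tc')).congr (fun l x => rfl) (by norm_num)

theorem mfac_sos (R : KRep ι F V S K) : SosF F V (mfac R) := GermFR.sosF (mfac_germ R) one_pos

theorem S_eq' (R : KRep ι F V S K) : EqF F V S (fun l x => mfac R l x * St R l x) := by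
  have h1 : ∀ᶠ l in F, R.ξ l ⬝ᵥ R.ξ l ≠ 0 :=
    ((txx R).eventually (lt_mem_nhds (zero_lt_one (α := ℝ)))).mono fun l hl => hl.ne'
  obtain ⟨A, hA, B, hB, e⟩ := R.S_eq
  refine ⟨A ∩ {l | R.ξ l ⬝ᵥ R.ξ l ≠ 0}, inter_mem hA h1, B, hB, fun l hl x hx => ?_⟩
  have h2 := e l hl.1 x hx
  beta_reduce at h2
  have h3 : (R.ξ l ⬝ᵥ R.ξ l) * S l x = K.c' x * St R l x := h2
  have h4 : R.ξ l ⬝ᵥ R.ξ l ≠ 0 := hl.2
  show S l x = (R.ξ l ⬝ᵥ R.ξ l)⁻¹ * K.c' x * St R l x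
  rw [mul_assoc, ← h3, ← mul_assoc, inv_mul_cancel₀ h4, one_mul]

/-- from `St` to `S` -/
theorem star_S (R : KRep ι F V S K) {N T : L → X → ℝ} (hN : SosF F V N) (hT : SosF F V T)
    {δ c : ℝ} (hδ : 0 ≤ δ) (hc : 0 ≤ c)
    (h : SosF F V (fun l x => St R l x + (δ * N l x - c * T l x))) :
    SosF F V (fun l x => S l x + (2 * δ) * N l x - c / 2 * T l x) := by
  have h1 := (mfac_sos R).mul h
  have h2 : SosF F V (fun l x => 2 - mfac R l x) :=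
    GermFR.sosF ((GermFR.const 2).sub (mfac_germ R)) (by norm_num)
  have h3 : SosF F V (fun l x => mfac R l x - 1 / 2) :=
    GermFR.sosF ((mfac_germ R).sub (GermFR.const (1 / 2))) (by norm_num)
  refine ((h1.add ((h2.mul hN).smul hδ)).add ((h3.mul hT).smul hc)).congr ?_
  obtain ⟨A, hA, B, hB, e⟩ := S_eq' R
  refine ⟨A, hA, B, hB, fun l hl x hx => ?_⟩
  beta_reduce
  rw [e l hl x hx]
  ring

theorem sos_S (R : KRep ι F V S K) (h : SosF F V (St R)) : SosF F V S := by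
  refine ((star_S R (N := fun _ _ => 0) (T := fun _ _ => 0) SosF.zero SosF.zero le_rfl le_rfl
    (δ := 0) (c := 0) (h.congr' fun l x => ?_))).congr' fun l x => ?_
  · ring
  · ring

theorem B00' (R : KRep ι F V S K) : R.ξ0 ⬝ᵥ (R.B *ᵥ R.ξ0) = 0 := R.B00

/-- `D ξ₀ = 0` -/
theorem Dxi0 (R : KRep ι F V S K) [F.NeBot] : R.D *ᵥ R.ξ0 = 0 := by
  funext i
  have h1 : Tendsto (fun l => (Mf R.B R.D R.G1 R.H (K.x0 l) (K.b l) (K.a l) *ᵥ R.ξ l) i) F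
      (𝓝 ((R.D *ᵥ R.ξ0) i)) := by
    simp only [Matrix.mulVec, dotProduct]
    refine tendsto_finsetSum _ fun j _ => ?_
    refine Tendsto.mul ?_ (R.tξ j)
    have h1 : Tendsto (fun x => K.x0 x * (1 : Matrix ι ι ℝ) i j + K.b x * R.B i j +
        (R.D i j + K.a x * R.G1 i j + K.a x ^ 2 * R.H (K.a x) i j)) F
        (𝓝 (0 * (1 : Matrix ι ι ℝ) i j + 0 * R.B i j +
          (R.D i j + 0 * R.G1 i j + 0 ^ 2 * R.H 0 i j))) :=
      ((R.tx0.mul_const _).add (R.tb.mul_const _)).add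
        ((tendsto_const_nhds.add (R.ta.mul_const _)).add ((R.ta.pow 2).mul (tH R i j)))
    have h2 : (0 * (1 : Matrix ι ι ℝ) i j + 0 * R.B i j +
          (R.D i j + 0 * R.G1 i j + 0 ^ 2 * R.H 0 i j)) = R.D i j := by ring
    rw [h2] at h1
    exact h1
  have h2 : Tendsto (fun l => (Mf R.B R.D R.G1 R.H (K.x0 l) (K.b l) (K.a l) *ᵥ R.ξ l) i) F
      (𝓝 0) := by
    refine tendsto_const_nhds.congr' ?_
    filter_upwards [R.ker] with l hl
    rw [hl]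
    rfl
  exact tendsto_nhds_unique h1 h2

/-- the contact rule for the pencil: weak half -/
def CRweak (R : KRep ι F V S K) : Prop := ∀ Z α : ℝ, ∃ q : ι → ℝ,
  gam R * α ^ 2 ≤ qf R.D q (Z • (R.B *ᵥ R.ξ0) + α • (R.G1 *ᵥ R.ξ0))

/-- the contact rule for the pencil: strict for some direction -/
def CRstrict (R : KRep ι F V S K) : Prop := ∃ (Z α : ℝ) (q : ι → ℝ),
  gam R * α ^ 2 < qf R.D q (Z • (R.B *ᵥ R.ξ0) + α • (R.G1 *ᵥ R.ξ0))

/-- `n` is a null direction -/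
def Null (R : KRep ι F V S K) (n1 n2 : ℝ) : Prop := ∀ q : ι → ℝ,
  qf R.D q (n1 • (R.B *ᵥ R.ξ0) + n2 • (R.G1 *ᵥ R.ξ0)) ≤ gam R * n2 ^ 2

theorem xi_ne (R : KRep ι F V S K) : R.ξ0 ⬝ᵥ R.ξ0 ≠ 0 := by rw [R.nrm0]; exact one_ne_zero

theorem lmr3 (R : KRep ι F V S K) {δ c n1 n2 : ℝ} (hδ : 0 ≤ δ) (hc : 0 ≤ c)
    (h : ∀ t Z α : ℝ, (t ≠ 0 ∨ Z ≠ 0 ∨ α ≠ 0) → ∃ q : ι → ℝ,
      gam R * α ^ 2 - δ * (t ^ 2 + Z ^ 2 + α ^ 2) + c * (t ^ 2 + (Z * n2 - α * n1) ^ 2) <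
        qf R.D q (t • R.ξ0 + Z • (R.B *ᵥ R.ξ0) + α • (R.G1 *ᵥ R.ξ0))) :
    SosF F V (fun l x => S l x + (2 * δ) * nrmK K l x -
      c / 2 * (K.t l x ^ 2 + (K.Z l x * n2 - K.α l x * n1) ^ 2)) := by
  let κ : Fin 3 → Fin 3 → ℝ := ![![δ - c, 0, 0], ![0, δ - c * n2 ^ 2, c * (n1 * n2)],
    ![0, c * (n1 * n2), δ - c * n1 ^ 2]]
  have hκ : ∀ t Z α : ℝ, ∑ a : Fin 3, ∑ b : Fin 3, κ a b * (![t, Z, α] : Fin 3 → ℝ) a *
      (![t, Z, α] : Fin 3 → ℝ) b =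
      δ * (t ^ 2 + Z ^ 2 + α ^ 2) - c * (t ^ 2 + (Z * n2 - α * n1) ^ 2) := by
    intro t Z α
    simp [Fin.sum_univ_three, κ]
    ring
  have h1 := krep_lmr R (ε := fun _ => 1) (β := fun l => R.B *ᵥ R.ξ l) (β0 := R.B *ᵥ R.ξ0)
    (Eventually.of_forall fun l => by rw [one_smul]) (tmv R R.B) κ (fun w hw => ?_)
  · have hT : SosF F V (fun l x => K.t l x ^ 2 + (K.Z l x * n2 - K.α l x * n1) ^ 2) :=
      sos_t.add (SosF.sq ((fr_Z.mul (FR.const n2)).sub (fr_α.mul (FR.const n1))))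
    refine star_S R sos_nrmK hT hδ hc (h1.congr' fun l x => ?_)
    have h2 : ∑ a : Fin 3, ∑ b : Fin 3, κ a b * gen K (fun _ => 1) a l x *
        gen K (fun _ => 1) b l x = ∑ a : Fin 3, ∑ b : Fin 3, κ a b *
        (![K.t l x, K.Z l x, K.α l x] : Fin 3 → ℝ) a *
        (![K.t l x, K.Z l x, K.α l x] : Fin 3 → ℝ) b := by
      have h3 : ∀ a : Fin 3, gen K (fun _ => 1) a l x =
          (![K.t l x, K.Z l x, K.α l x] : Fin 3 → ℝ) a := by
        intro a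
        fin_cases a
        · rfl
        · show (1 : ℝ) * K.Z l x = K.Z l x
          ring
        · rfl
      simp only [h3]
    rw [h2, hκ]
    rfl
  · have hw' : w = ![w 0, w 1, w 2] := by
      funext i; fin_cases i <;> rfl
    have hne : w 0 ≠ 0 ∨ w 1 ≠ 0 ∨ w 2 ≠ 0 := by
      by_contra hc
      push Not at hc
      apply hw
      funext i
      fin_cases i
      · exact hc.1
      · exact hc.2.1
      · exact hc.2.2
    obtain ⟨q, hq⟩ := h (w 0) (w 1) (w 2) hne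
    refine ⟨q, ?_⟩
    have h4 : ∑ a : Fin 3, ∑ b : Fin 3, κ a b * w a * w b =
        δ * (w 0 ^ 2 + w 1 ^ 2 + w 2 ^ 2) - c * (w 0 ^ 2 + (w 1 * n2 - w 2 * n1) ^ 2) := by
      rw [← hκ, ← hw']
    rw [h4]
    linarith

/-- **3.1** -/
theorem krep_star [F.NeBot] (R : KRep ι F V S K) (hw : CRweak R) (hs : CRstrict R) :
    SosF F V S ∨ ∃ n1 n2 : ℝ, (n1 ≠ 0 ∨ n2 ≠ 0) ∧ Null R n1 n2 ∧
      ∃ c > 0, ∀ δ > 0, SosF F V (fun l x => S l x + δ * nrmK K l x -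
        c * (K.t l x ^ 2 + (K.Z l x * n2 - K.α l x * n1) ^ 2)) := by
  by_cases hN : ∃ n1 n2 : ℝ, (n1 ≠ 0 ∨ n2 ≠ 0) ∧ Null R n1 n2
  · right
    obtain ⟨n1, n2, hn, hN⟩ := hN
    refine ⟨n1, n2, hn, hN, ?_⟩
    obtain ⟨c, hc, h⟩ := star_pos R.psdD (Dxi0 R) (xi_ne R) R.B00 R.G00 hn
      (fun Z α _ => hw Z α) hN hs
    refine ⟨c / 2, by positivity, fun δ hδ => ?_⟩
    refine (lmr3 R (δ := δ / 2) (by positivity) hc.le (h (δ / 2) (by positivity))).congr'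
      fun l x => ?_
    ring
  · left
    push Not at hN
    have h1 := all_pos R.psdD (Dxi0 R) (xi_ne R) R.B00 R.G00 (γ := gam R) (fun Z α hne => by
      have := hN Z α hne
      unfold Null at this
      push Not at this
      exact this)
    refine (lmr3 R (δ := 0) (c := 0) (n1 := 0) (n2 := 0) le_rfl le_rfl fun t Z α hne => ?_).congr'
      fun l x => ?_
    · obtain ⟨q, hq⟩ := h1 t Z α hne
      exact ⟨q, by linarith⟩
    · ring

end Vale.Agent.P256.H824
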